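import Vale.Agent.Lib.P237.Body

/-! # P237 units E1-E3: intervals, `R_1 = 2` -/

namespace P237
open MeasureTheory
open scoped Pointwise

/-- the interval `[a,b]` in `ℝ^1` -/
def seg1 (a b : ℝ) : Set (Fin 1 → ℝ) := {x | a ≤ x 0 ∧ x 0 ≤ b}

theorem seg1_eq_Icc (a b : ℝ) : seg1 a b = Set.Icc (fun _ => a) (fun _ => b) := by
  ext x
  simp only [seg1, Set.mem_ofPred_eq, Set.mem_Icc, Pi.le_def]
  constructor
  · rintro ⟨h1, h2⟩
    exact ⟨fun i => by rw [Subsingleton.elim i 0]; exact h1,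
      fun i => by rw [Subsingleton.elim i 0]; exact h2⟩
  · rintro ⟨h1, h2⟩
    exact ⟨h1 0, h2 0⟩

/-- E1a: `seg1 a b = Set.Icc (fun _ => a) (fun _ => b)`. -/
theorem isCompact_seg1 (a b : ℝ) : IsCompact (seg1 a b) := by
  rw [seg1_eq_Icc]
  exact isCompact_Icc

/-- E1b -/
theorem convex_seg1 (a b : ℝ) : Convex ℝ (seg1 a b) := by
  rw [seg1_eq_Icc]
  exact convex_Icc _ _

/-- E1c: `Real.volume_Icc_pi`. -/
theorem vol_seg1 {a b : ℝ} (hab : a ≤ b) : vol (seg1 a b) = b - a := by
  unfold vol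
  rw [seg1_eq_Icc, Real.volume_Icc_pi]
  simp [ENNReal.toReal_ofReal (sub_nonneg.mpr hab)]

theorem sweep_seg1 {a b : ℝ} (hab : a ≤ b) (u : Fin 1 → ℝ) :
    sweep (seg1 a b) u = seg1 (a + min 0 (u 0)) (b + max 0 (u 0)) := by
  ext z
  simp only [sweep, seg1, Set.mem_ofPred_eq, Set.mem_Icc]
  constructor
  · rintro ⟨x, ⟨hx1, hx2⟩, t, ⟨ht0, ht1⟩, rfl⟩
    simp only [Pi.add_apply, Pi.smul_apply, smul_eq_mul]
    constructor
    · have : min 0 (u 0) ≤ t * u 0 := by
        rcases le_total 0 (u 0) with h | h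
        · rw [min_eq_left h]; positivity
        · rw [min_eq_right h]; nlinarith
      linarith
    · have : t * u 0 ≤ max 0 (u 0) := by
        rcases le_total 0 (u 0) with h | h
        · rw [max_eq_right h]; nlinarith
        · rw [max_eq_left h]; nlinarith
      linarith
  · rintro ⟨h1, h2⟩
    rcases le_total 0 (u 0) with h | h
    · rw [min_eq_left h] at h1
      rw [max_eq_right h] at h2
      by_cases hz : z 0 ≤ b
      · exact ⟨z, ⟨by linarith, hz⟩, 0, ⟨le_refl _, zero_le_one⟩, by simp⟩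
      · push Not at hz
        have hu : 0 < u 0 := by linarith
        refine ⟨fun _ => b, ⟨hab, le_refl _⟩, (z 0 - b) / u 0,
          ⟨div_nonneg (by linarith) hu.le, ?_⟩, ?_⟩
        · rw [div_le_one hu]; linarith
        · funext i
          rw [Subsingleton.elim i 0]
          simp only [Pi.add_apply, Pi.smul_apply, smul_eq_mul]
          rw [div_mul_cancel₀ _ hu.ne']
          ring
    · rw [min_eq_right h] at h1
      rw [max_eq_left h] at h2
      by_cases hz : a ≤ z 0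
      · exact ⟨z, ⟨hz, by linarith⟩, 0, ⟨le_refl _, zero_le_one⟩, by simp⟩
      · push Not at hz
        have hu : u 0 < 0 := by linarith
        refine ⟨fun _ => a, ⟨le_refl _, hab⟩, (z 0 - a) / u 0, ⟨?_, ?_⟩, ?_⟩
        · exact div_nonneg_of_nonpos (by linarith) hu.le
        · rw [div_le_one_of_neg hu]; linarith
        · funext i
          rw [Subsingleton.elim i 0]
          simp only [Pi.add_apply, Pi.smul_apply, smul_eq_mul]
          rw [div_mul_cancel₀ _ hu.ne]
          ring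

/-- E2: `seg1 a b + [0,u] = seg1 (a + min 0 (u 0)) (b + max 0 (u 0))`. -/
theorem hProj_seg1 {a b : ℝ} (hab : a ≤ b) (u : Fin 1 → ℝ) : hProj (seg1 a b) u = |u 0| := by
  unfold hProj
  rw [sweep_seg1 hab, vol_seg1 hab, vol_seg1]
  · rcases le_total 0 (u 0) with h | h
    · rw [min_eq_left h, max_eq_right h, abs_of_nonneg h]; ring
    · rw [min_eq_right h, max_eq_left h, abs_of_nonpos h]; ring
  · have h1 : min 0 (u 0) ≤ 0 := min_le_left _ _
    have h2 : 0 ≤ max 0 (u 0) := le_max_left _ _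
    linarith

theorem projBody_seg1 {a b : ℝ} (hab : a ≤ b) : projBody (seg1 a b) = seg1 (-1) 1 := by
  ext x
  have hmem : x ∈ projBody (seg1 a b) ↔ ∀ u : Fin 1 → ℝ, x 0 * u 0 ≤ |u 0| := by
    simp only [projBody, Set.mem_ofPred_eq, Fin.sum_univ_one, hProj_seg1 hab]
  rw [hmem]
  simp only [seg1, Set.mem_ofPred_eq]
  constructor
  · intro h
    have h1 := h (fun _ => 1)
    have h2 := h (fun _ => -1)
    simp at h1 h2
    constructor <;> linarith
  · rintro ⟨h1, h2⟩ u
    rcases le_total 0 (u 0) with h | h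
    · rw [abs_of_nonneg h]; nlinarith
    · rw [abs_of_nonpos h]; nlinarith

/-- E3: `Π [a,b] = seg1 (-1) 1`. -/
theorem Rn_seg1 {a b : ℝ} (hab : a < b) : Rn (seg1 a b) = 2 := by
  unfold Rn
  rw [projBody_seg1 hab.le, vol_seg1 (by norm_num : (-1 : ℝ) ≤ 1)]
  simp
  norm_num

end P237
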