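import Vale.Agent.Lib.P237.Rho

/-! # P237 units K5: `kap n` is the volume of the Euclidean unit ball of `ℝ^n` -/

namespace P237
open MeasureTheory

/-- `κ_n`: the volume of the Euclidean unit ball of `ℝ^n` -/
noncomputable def kapB (n : ℕ) : ℝ := vol {x : Fin n → ℝ | ∑ i, x i ^ 2 ≤ 1}

/-- K5a: `EuclideanSpace.volume_closedBall` and the measure preserving identification of
`EuclideanSpace ℝ (Fin n)` with `Fin n → ℝ` (`EuclideanSpace.volume_preserving_measurableEquiv` or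
`PiLp.volume_preserving_toLp`); `EuclideanSpace.norm_eq`, `Real.sqrt_le_one`. -/
theorem kapB_eq_gamma (n : ℕ) :
    kapB n = Real.sqrt Real.pi ^ n / Real.Gamma ((n : ℝ) / 2 + 1) := by
  unfold kapB vol
  rcases Nat.eq_zero_or_pos n with rfl | hn
  · have : {x : Fin 0 → ℝ | ∑ i, x i ^ 2 ≤ 1} = Set.univ := by
      ext x; simp
    rw [this, volume_pi, Measure.pi_of_empty]
    simp
  · haveI : Nonempty (Fin n) := ⟨⟨0, hn⟩⟩
    have hset : {x : Fin n → ℝ | ∑ i, x i ^ 2 ≤ 1}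
        = (WithLp.toLp 2) ⁻¹' (Metric.closedBall (0 : EuclideanSpace ℝ (Fin n)) 1) := by
      ext x
      simp [EuclideanSpace.closedBall_zero_eq _ zero_le_one]
    rw [hset, (PiLp.volume_preserving_toLp (Fin n)).measure_preimage
      measurableSet_closedBall.nullMeasurableSet, EuclideanSpace.volume_closedBall]
    simp only [ENNReal.ofReal_one, one_pow, one_mul, Fintype.card_fin]
    rw [ENNReal.toReal_ofReal]
    have : 0 < Real.Gamma ((n : ℝ) / 2 + 1) := Real.Gamma_pos_of_pos (by positivity)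
    positivity

/-- K5b: `Real.Gamma_add_one`, `Real.Gamma_one_half_eq`, `Real.Gamma_one`. -/
theorem gamma_rec :
    Real.sqrt Real.pi ^ 0 / Real.Gamma (((0 : ℕ) : ℝ) / 2 + 1) = 1 ∧
    Real.sqrt Real.pi ^ 1 / Real.Gamma (((1 : ℕ) : ℝ) / 2 + 1) = 2 ∧
    ∀ n : ℕ, Real.sqrt Real.pi ^ (n + 2) / Real.Gamma (((n + 2 : ℕ) : ℝ) / 2 + 1)
      = Real.sqrt Real.pi ^ n / Real.Gamma ((n : ℝ) / 2 + 1) * (2 * Real.pi / (n + 2)) := by
  have hpi : 0 < Real.sqrt Real.pi := Real.sqrt_pos.mpr Real.pi_pos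
  refine ⟨?_, ?_, ?_⟩
  · simp
  · have h : Real.Gamma (((1 : ℕ) : ℝ) / 2 + 1) = (1 / 2) * Real.sqrt Real.pi := by
      rw [Nat.cast_one, Real.Gamma_add_one (by norm_num), Real.Gamma_one_half_eq]
    rw [h]
    field_simp
  · intro n
    have e : ((n + 2 : ℕ) : ℝ) / 2 + 1 = ((n : ℝ) / 2 + 1) + 1 := by push_cast; ring
    have hne : (n : ℝ) / 2 + 1 ≠ 0 := by positivity
    have hG : Real.Gamma ((n : ℝ) / 2 + 1) ≠ 0 := (Real.Gamma_pos_of_pos (by positivity)).ne'
    rw [e, Real.Gamma_add_one hne, pow_add, Real.sq_sqrt Real.pi_pos.le]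
    field_simp

/-- K5c: `Finset.prod_range_succ`, `rho_mul_succ`, `rho_one`. -/
theorem kap_rec : kap 0 = 1 ∧ kap 1 = 2 ∧
    ∀ n : ℕ, kap (n + 2) = kap n * (2 * Real.pi / (n + 2)) := by
  refine ⟨by simp [kap], by simp [kap, rho_one], fun n => ?_⟩
  unfold kap
  rw [Finset.prod_range_succ, Finset.prod_range_succ, mul_assoc, rho_mul_succ (n + 1)]
  push_cast
  ring_nf

/-- K5d: two step induction (`Nat.twoStepInduction` or strong induction) from K5a-K5c. -/
theorem kapB_eq_kap (n : ℕ) : kapB n = kap n := by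
  obtain ⟨g0, g1, g2⟩ := gamma_rec
  obtain ⟨k0, k1, k2⟩ := kap_rec
  rw [kapB_eq_gamma]
  induction n using Nat.twoStepInduction with
  | zero => rw [g0, k0]
  | one => rw [g1, k1]
  | more n ih _ => rw [g2, k2, ih]

theorem petOf_kapB : petOf kapB = petOf kap := by
  have : kapB = kap := funext kapB_eq_kap
  rw [this]

end P237
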