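import Vale.Agent.Lib.P237.Slice

/-! # P237 units C1-C4: the projection body of a product, multiplicativity of `R_n` -/

namespace P237
open MeasureTheory
open scoped Pointwise
variable {ι κ : Type*} [Fintype ι] [Fintype κ]

/-- C1: `x ∈ Π K` gives `x i ≤ hProj K (Pi.single i 1)` and `- x i ≤ hProj K (Pi.single i (-1))`, so
`Π K` lies in a box `Set.Icc a b`, of finite volume. -/
theorem volume_projBody_lt_top (K : Set (ι → ℝ)) : volume (projBody K) < ⊤ := by
  classical
  have hsub : projBody K ⊆ Set.Icc (fun i => - hProj K (Pi.single i (-1)))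
      (fun i => hProj K (Pi.single i 1)) := by
    intro x hx
    simp only [projBody, Set.mem_ofPred_eq] at hx
    constructor
    · intro i
      have h := hx (Pi.single i (-1))
      have hs : ∑ j, x j * (Pi.single i (-1) : ι → ℝ) j = - x i := by
        rw [Finset.sum_eq_single i]
        · simp
        · intro j _ hj; simp [Pi.single_eq_of_ne hj]
        · intro h; exact absurd (Finset.mem_univ _) h
      rw [hs] at h
      show - hProj K (Pi.single i (-1)) ≤ x i
      linarith
    · intro i
      have h := hx (Pi.single i 1)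
      have hs : ∑ j, x j * (Pi.single i 1 : ι → ℝ) j = x i := by
        rw [Finset.sum_eq_single i]
        · simp
        · intro j _ hj; simp [Pi.single_eq_of_ne hj]
        · intro h; exact absurd (Finset.mem_univ _) h
      rw [hs] at h
      exact h
  exact lt_of_le_of_lt (measure_mono hsub) isCompact_Icc.measure_lt_top

/-- C2: every vector of `ℝ^(ι ⊕ κ)` is `Sum.elim u w`; `Fintype.sum_sum_type`; `hProj_prod`;
for `⊆` take `w = 0` resp. `u = 0` (`hProj_zero`) and divide by the positive volume. -/
theorem projBody_prod {K : Set (ι → ℝ)} {L : Set (κ → ℝ)} (hK : IsCompact K) (hKc : Convex ℝ K)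
    (hL : IsCompact L) (hLc : Convex ℝ L) (hvK : 0 < vol K) (hvL : 0 < vol L) :
    projBody (prod K L) = prod (vol L • projBody K) (vol K • projBody L) := by
  ext z
  have hmem : z ∈ projBody (prod K L) ↔ ∀ (u : ι → ℝ) (w : κ → ℝ),
      ∑ i, z (Sum.inl i) * u i + ∑ j, z (Sum.inr j) * w j ≤
        vol L * hProj K u + vol K * hProj L w := by
    simp only [projBody, Set.mem_ofPred_eq]
    constructor
    · intro h u w
      have := h (Sum.elim u w)
      rw [Fintype.sum_sum_type, hProj_prod hK hKc hL hLc] at this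
      simpa using this
    · intro h U
      have := h (fun i => U (Sum.inl i)) (fun j => U (Sum.inr j))
      rw [Fintype.sum_sum_type]
      have hU : U = Sum.elim (fun i => U (Sum.inl i)) (fun j => U (Sum.inr j)) := by
        funext s; cases s <;> rfl
      rw [hU, hProj_prod hK hKc hL hLc]
      simpa using this
  rw [hmem]
  simp only [prod, Set.mem_ofPred_eq, Set.mem_smul_set]
  constructor
  · intro h
    refine ⟨⟨(vol L)⁻¹ • (fun i => z (Sum.inl i)), ?_, ?_⟩,
      ⟨(vol K)⁻¹ • (fun j => z (Sum.inr j)), ?_, ?_⟩⟩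
    · simp only [projBody, Set.mem_ofPred_eq]
      intro u
      have := h u 0
      rw [hProj_zero] at this
      simp only [Pi.zero_apply, mul_zero, Finset.sum_const_zero, add_zero] at this
      have h2 : ∑ i, ((vol L)⁻¹ • fun i => z (Sum.inl i)) i * u i =
          (vol L)⁻¹ * ∑ i, z (Sum.inl i) * u i := by
        rw [Finset.mul_sum]
        refine Finset.sum_congr rfl fun i _ => ?_
        simp only [Pi.smul_apply, smul_eq_mul]; ring
      rw [h2, inv_mul_le_iff₀ hvL]
      exact this
    · rw [smul_smul, mul_inv_cancel₀ hvL.ne', one_smul]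
    · simp only [projBody, Set.mem_ofPred_eq]
      intro w
      have := h 0 w
      rw [hProj_zero] at this
      simp only [Pi.zero_apply, mul_zero, Finset.sum_const_zero, zero_add] at this
      have h2 : ∑ j, ((vol K)⁻¹ • fun j => z (Sum.inr j)) j * w j =
          (vol K)⁻¹ * ∑ j, z (Sum.inr j) * w j := by
        rw [Finset.mul_sum]
        refine Finset.sum_congr rfl fun j _ => ?_
        simp only [Pi.smul_apply, smul_eq_mul]; ring
      rw [h2, inv_mul_le_iff₀ hvK]
      exact this
    · rw [smul_smul, mul_inv_cancel₀ hvK.ne', one_smul]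
  · rintro ⟨⟨x, hx, hxz⟩, ⟨y, hy, hyz⟩⟩ u w
    simp only [projBody, Set.mem_ofPred_eq] at hx hy
    have h1 : ∑ i, z (Sum.inl i) * u i = vol L * ∑ i, x i * u i := by
      rw [Finset.mul_sum]
      refine Finset.sum_congr rfl fun i _ => ?_
      have := congrFun hxz i
      simp only [Pi.smul_apply, smul_eq_mul] at this
      rw [← this]; ring
    have h2 : ∑ j, z (Sum.inr j) * w j = vol K * ∑ j, y j * w j := by
      rw [Finset.mul_sum]
      refine Finset.sum_congr rfl fun j _ => ?_
      have := congrFun hyz j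
      simp only [Pi.smul_apply, smul_eq_mul] at this
      rw [← this]; ring
    rw [h1, h2]
    exact add_le_add (mul_le_mul_of_nonneg_left (hx u) hvL.le)
      (mul_le_mul_of_nonneg_left (hy w) hvK.le)

/-- C3: `Measure.addHaar_smul`, `Module.finrank_fintype_fun_eq_card`. -/
theorem vol_smul (c : ℝ) (hc : 0 ≤ c) (A : Set (ι → ℝ)) :
    vol (c • A) = c ^ Fintype.card ι * vol A := by
  unfold vol
  rw [Measure.addHaar_smul, Module.finrank_fintype_fun_eq_card, ENNReal.toReal_mul,
    abs_of_nonneg (pow_nonneg hc _), ENNReal.toReal_ofReal (pow_nonneg hc _)]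

/-- C4: algebra from C2, C3, `vol_prod`; `Fintype.card_sum`; write `card ι = n + 1`,
`card κ = m + 1`; `field_simp`. -/
theorem Rn_prod [Nonempty ι] [Nonempty κ] {K : Set (ι → ℝ)} {L : Set (κ → ℝ)} (hK : IsCompact K)
    (hKc : Convex ℝ K) (hL : IsCompact L) (hLc : Convex ℝ L) (hvK : 0 < vol K) (hvL : 0 < vol L) :
    Rn (prod K L) = Rn K * Rn L := by
  unfold Rn
  rw [projBody_prod hK hKc hL hLc hvK hvL, vol_prod, vol_prod, vol_smul _ hvL.le,
    vol_smul _ hvK.le, Fintype.card_sum]
  obtain ⟨n, hn⟩ : ∃ n, Fintype.card ι = n + 1 :=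
    ⟨Fintype.card ι - 1, (Nat.succ_pred_eq_of_pos Fintype.card_pos).symm⟩
  obtain ⟨m, hm⟩ : ∃ m, Fintype.card κ = m + 1 :=
    ⟨Fintype.card κ - 1, (Nat.succ_pred_eq_of_pos Fintype.card_pos).symm⟩
  rw [hn, hm]
  have e1 : n + 1 + (m + 1) - 1 = n + m + 1 := by omega
  rw [e1, Nat.add_sub_cancel, Nat.add_sub_cancel]
  have h1 := hvK.ne'
  have h2 := hvL.ne'
  field_simp
  ring

end P237
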