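import Mathlib

/-!
# P237 (Petty's projection-volume conjecture): definitions

`ℝ^ι = ι → ℝ` with Lebesgue measure `volume` and the standard inner product `∑ i, x i * u i`.
For a convex body `K` and a vector `u`, Cavalieri's principle gives
`|K + [0,u]| = |K| + |u| vol_{n-1}(proj_{u^⊥} K)`, so `hProj K u = |K + [0,u]| - |K|` is the
positively homogeneous extension of the support function of the projection body.
-/

namespace P237

open MeasureTheory

variable {ι κ : Type*} [Fintype ι] [Fintype κ]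

/-- Lebesgue volume as a real number. -/
noncomputable def vol (K : Set (ι → ℝ)) : ℝ := (volume K).toReal

/-- The Minkowski sum `K + [0,u]`. -/
def sweep (K : Set (ι → ℝ)) (u : ι → ℝ) : Set (ι → ℝ) :=
  {z | ∃ x ∈ K, ∃ t ∈ Set.Icc (0 : ℝ) 1, z = x + t • u}

/-- `|K + [0,u]| - |K| = |u| vol_{n-1}(proj_{u^⊥} K)`: the support function of `Π K`. -/
noncomputable def hProj (K : Set (ι → ℝ)) (u : ι → ℝ) : ℝ := vol (sweep K u) - vol K

/-- The projection body `Π K`: the convex body with support function `hProj K`. -/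
def projBody (K : Set (ι → ℝ)) : Set (ι → ℝ) := {x | ∀ u : ι → ℝ, ∑ i, x i * u i ≤ hProj K u}

/-- The normalised projection volume `R_n(K) = |Π K| / |K|^(n-1)`. -/
noncomputable def Rn (K : Set (ι → ℝ)) : ℝ := vol (projBody K) / vol K ^ (Fintype.card ι - 1)

/-- The Cartesian product `K × L ⊆ ℝ^(ι ⊕ κ)`. -/
def prod (K : Set (ι → ℝ)) (L : Set (κ → ℝ)) : Set (ι ⊕ κ → ℝ) :=
  {z | (fun i => z (Sum.inl i)) ∈ K ∧ (fun j => z (Sum.inr j)) ∈ L}

/-- `L + T w` for a set `T` of reals. -/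
def sweepI (L : Set (κ → ℝ)) (w : κ → ℝ) (T : Set ℝ) : Set (κ → ℝ) := {y | ∃ t ∈ T, y - t • w ∈ L}

/-- the times `t ∈ [0,1]` with `x ∈ K + t u` -/
def tset (K : Set (ι → ℝ)) (u x : ι → ℝ) : Set ℝ := {t | t ∈ Set.Icc (0 : ℝ) 1 ∧ x - t • u ∈ K}

end P237
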