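import Vale.Agent.Lib.P237.Planar
import Vale.Agent.Lib.P237.Line

/-! # P237: assembly -/

namespace P237
open MeasureTheory
open scoped Pointwise

/-- cylinders over planar convex bodies -/
theorem cylinder {C : Set (Fin 2 → ℝ)} (hC : IsCompact C) (hc : Convex ℝ C) (hv : 0 < vol C)
    {a b : ℝ} (hab : a < b) : 8 ≤ Rn (prod C (seg1 a b)) := by
  rw [Rn_prod hC hc (isCompact_seg1 a b) (convex_seg1 a b) hv
    (by rw [vol_seg1 hab.le]; linarith), Rn_seg1 hab]
  have := four_le_Rn hC hc hv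
  linarith

/-- products of two planar convex bodies -/
theorem planar_prod {C D : Set (Fin 2 → ℝ)} (hC : IsCompact C) (hc : Convex ℝ C) (hv : 0 < vol C)
    (hD : IsCompact D) (hd : Convex ℝ D) (hw : 0 < vol D) : 16 ≤ Rn (prod C D) := by
  rw [Rn_prod hC hc hD hd hv hw]
  have h1 := four_le_Rn hC hc hv
  have h2 := four_le_Rn hD hd hw
  nlinarith

/-- `κ_2^3 / κ_3 = π^3 / (4 π / 3) < 8` -/
theorem petty_const_three : Real.pi ^ 3 / (4 * Real.pi / 3) < 8 := by
  have h1 := Real.pi_pos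
  have h2 := Real.pi_lt_d2
  have : Real.pi ^ 3 / (4 * Real.pi / 3) = 3 * Real.pi ^ 2 / 4 := by
    field_simp
  rw [this]
  nlinarith

end P237
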