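import Vale.Agent.Lib.P237.Final
import Vale.Agent.Lib.P237.Ball

/-! # P237: Petty's inequality is inherited by Cartesian products -/

namespace P237
open MeasureTheory
variable {ι κ : Type*} [Fintype ι] [Fintype κ]

theorem Rn_nonneg (K : Set (ι → ℝ)) : 0 ≤ Rn K :=
  div_nonneg ENNReal.toReal_nonneg (pow_nonneg ENNReal.toReal_nonneg _)

theorem closure_le [Nonempty ι] [Nonempty κ] {K : Set (ι → ℝ)} {L : Set (κ → ℝ)}
    (hK : IsCompact K) (hKc : Convex ℝ K) (hL : IsCompact L) (hLc : Convex ℝ L) (hvK : 0 < vol K)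
    (hvL : 0 < vol L) (h1 : petOf kapB (Fintype.card ι) ≤ Rn K)
    (h2 : petOf kapB (Fintype.card κ) ≤ Rn L) :
    petOf kapB (Fintype.card (ι ⊕ κ)) ≤ Rn (prod K L) ∧
      (3 ≤ Fintype.card (ι ⊕ κ) → petOf kapB (Fintype.card (ι ⊕ κ)) < Rn (prod K L)) := by
  rw [Rn_prod hK hKc hL hLc hvK hvL, Fintype.card_sum]
  rw [petOf_kapB] at *
  have p1 := pet_pos (Fintype.card ι)
  have p2 := pet_pos (Fintype.card κ)
  have hmul : petOf kap (Fintype.card ι) * petOf kap (Fintype.card κ) ≤ Rn K * Rn L :=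
    mul_le_mul h1 h2 p2.le (Rn_nonneg K)
  refine ⟨le_trans (pet_add_le _ _) hmul, fun h3 => ?_⟩
  exact lt_of_lt_of_le (pet_add_lt _ _ Fintype.card_pos Fintype.card_pos h3) hmul

theorem pet_one : petOf kapB 1 = 2 := by rw [petOf_kapB]; exact pet_small.2.1

theorem pet_two : petOf kapB 2 = 4 := by rw [petOf_kapB]; exact pet_small.2.2

end P237
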