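import Vale.Agent.Lib.P237.Final2

/-! # P237: iterated products of convex bodies of dimension at most two -/

namespace P237
open MeasureTheory

theorem vol_pos_of_interior {ι : Type*} [Fintype ι] {K : Set (ι → ℝ)} (hK : IsCompact K)
    (hi : (interior K).Nonempty) : 0 < vol K := by
  unfold vol
  apply ENNReal.toReal_pos
  · exact (lt_of_lt_of_le (isOpen_interior.measure_pos volume hi)
      (measure_mono interior_subset)).ne'
  · exact hK.measure_lt_top.ne

/-- The iterated Cartesian products of intervals `[a,b]`, `a < b`, and planar convex bodies. -/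
inductive LowProd : (ι : Type) → Fintype ι → Set (ι → ℝ) → Prop
  | seg (a b : ℝ) (h : a < b) : LowProd (Fin 1) inferInstance (seg1 a b)
  | planar (C : Set (Fin 2 → ℝ)) (h1 : IsCompact C) (h2 : Convex ℝ C)
      (h3 : (interior C).Nonempty) : LowProd (Fin 2) inferInstance C
  | mul {ι κ : Type} (i : Fintype ι) (j : Fintype κ) (K : Set (ι → ℝ)) (L : Set (κ → ℝ)) :
      LowProd ι i K → LowProd κ j L → LowProd (ι ⊕ κ) inferInstance (prod K L)

theorem LowProd.props {ι : Type} {i : Fintype ι} {K : Set (ι → ℝ)} (h : LowProd ι i K) :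
    Nonempty ι ∧ IsCompact K ∧ Convex ℝ K ∧ 0 < vol K ∧ petOf kapB (Fintype.card ι) ≤ Rn K := by
  induction h with
  | seg a b h =>
    refine ⟨inferInstance, isCompact_seg1 a b, convex_seg1 a b, ?_, ?_⟩
    · rw [vol_seg1 h.le]; linarith
    · rw [Rn_seg1 h, Fintype.card_fin, pet_one]
  | planar C h1 h2 h3 =>
    refine ⟨inferInstance, h1, h2, vol_pos_of_interior h1 h3, ?_⟩
    rw [Fintype.card_fin, pet_two]
    exact four_le_Rn h1 h2 (vol_pos_of_interior h1 h3)
  | mul i j K L _ _ ihK ihL =>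
    obtain ⟨n1, c1, x1, v1, p1⟩ := ihK
    obtain ⟨n2, c2, x2, v2, p2⟩ := ihL
    refine ⟨inferInstance, isCompact_prod c1 c2, convex_prod x1 x2, ?_, ?_⟩
    · rw [vol_prod]; positivity
    · exact (closure_le c1 x1 c2 x2 v1 v2 p1 p2).1

theorem LowProd.strict {ι : Type} {i : Fintype ι} {K : Set (ι → ℝ)} (h : LowProd ι i K)
    (h3 : 3 ≤ Fintype.card ι) : petOf kapB (Fintype.card ι) < Rn K := by
  cases h with
  | seg a b h => simp at h3
  | planar C h1 h2 h3' => simp at h3
  | mul i j K L hK hL =>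
    obtain ⟨n1, c1, x1, v1, p1⟩ := hK.props
    obtain ⟨n2, c2, x2, v2, p2⟩ := hL.props
    exact (closure_le c1 x1 c2 x2 v1 v2 p1 p2).2 h3

end P237
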