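import Vale.Agent.Lib.P237.Low

/-! # P237: monotonicity of the projection body; bodies with a large inscribed product -/

namespace P237
open MeasureTheory
variable {ι : Type*} [Fintype ι]

theorem sweep_mono {P K : Set (ι → ℝ)} (h : P ⊆ K) (u : ι → ℝ) : sweep P u ⊆ sweep K u := by
  rintro z ⟨x, hx, t, ht, rfl⟩
  exact ⟨x, h hx, t, ht, rfl⟩

/-- the support function of the projection body is monotone in the body -/
theorem hProj_mono {P K : Set (ι → ℝ)} (hP : IsCompact P) (hPc : Convex ℝ P) (hK : IsCompact K)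
    (hKc : Convex ℝ K) (h : P ⊆ K) (u : ι → ℝ) : hProj P u ≤ hProj K u := by
  have key : ∀ N : ℕ, (N : ℝ) * hProj P u - vol K ≤ (N : ℝ) * hProj K u := by
    intro N
    have hfin : volume (sweep K ((N : ℝ) • u)) ≠ ⊤ := (isCompact_sweep hK _).measure_lt_top.ne
    have hle : vol (sweep P ((N : ℝ) • u)) ≤ vol (sweep K ((N : ℝ) • u)) :=
      ENNReal.toReal_mono hfin (measure_mono (sweep_mono h _))
    have h1 : hProj P ((N : ℝ) • u) = (N : ℝ) * hProj P u := hProj_smul hP hPc u (Nat.cast_nonneg N)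
    have h2 : hProj K ((N : ℝ) • u) = (N : ℝ) * hProj K u := hProj_smul hK hKc u (Nat.cast_nonneg N)
    have h0 : 0 ≤ vol P := ENNReal.toReal_nonneg
    rw [← h1, ← h2, hProj, hProj]
    linarith
  by_contra hlt
  push Not at hlt
  have hpos : 0 < hProj P u - hProj K u := by linarith
  obtain ⟨N, hN⟩ := exists_nat_gt (vol K / (hProj P u - hProj K u))
  have h1 := key N
  rw [div_lt_iff₀ hpos] at hN
  nlinarith

theorem projBody_mono {P K : Set (ι → ℝ)} (hP : IsCompact P) (hPc : Convex ℝ P) (hK : IsCompact K)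
    (hKc : Convex ℝ K) (h : P ⊆ K) : projBody P ⊆ projBody K :=
  fun _ hx u => le_trans (hx u) (hProj_mono hP hPc hK hKc h u)

/-- `R_n(K) ≥ R_n(P) (|P| / |K|)^(n-1)` for convex bodies `P ⊆ K` -/
theorem Rn_ge_of_subset {P K : Set (ι → ℝ)} (hP : IsCompact P) (hPc : Convex ℝ P)
    (hK : IsCompact K) (hKc : Convex ℝ K) (h : P ⊆ K) (hv : 0 < vol P) :
    Rn P * (vol P / vol K) ^ (Fintype.card ι - 1) ≤ Rn K := by
  have hvK : 0 < vol K :=
    lt_of_lt_of_le hv (ENNReal.toReal_mono hK.measure_lt_top.ne (measure_mono h))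
  have h1 : vol (projBody P) ≤ vol (projBody K) :=
    ENNReal.toReal_mono (volume_projBody_lt_top K).ne (measure_mono (projBody_mono hP hPc hK hKc h))
  unfold Rn
  have e : vol (projBody P) / vol P ^ (Fintype.card ι - 1) * (vol P / vol K) ^ (Fintype.card ι - 1)
      = vol (projBody P) / vol K ^ (Fintype.card ι - 1) := by
    rw [div_pow]
    have a1 : vol P ^ (Fintype.card ι - 1) ≠ 0 := (pow_pos hv _).ne'
    have a2 : vol K ^ (Fintype.card ι - 1) ≠ 0 := (pow_pos hvK _).ne'
    field_simp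
  rw [e]
  exact div_le_div_of_nonneg_right h1 (pow_pos hvK _).le

/-- iterated products of intervals and planar bodies have `R_n ≥ 2^n` -/
theorem LowProd.two_pow_le {ι : Type} {i : Fintype ι} {K : Set (ι → ℝ)} (h : LowProd ι i K) :
    (2 : ℝ) ^ Fintype.card ι ≤ Rn K := by
  induction h with
  | seg a b h => rw [Rn_seg1 h, Fintype.card_fin]; norm_num
  | planar C h1 h2 h3 =>
    rw [Fintype.card_fin]
    have := four_le_Rn h1 h2 (vol_pos_of_interior h1 h3)
    linarith
  | mul i j K L hK hL ihK ihL =>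
    obtain ⟨n1, c1, x1, v1, _⟩ := hK.props
    obtain ⟨n2, c2, x2, v2, _⟩ := hL.props
    rw [Rn_prod c1 x1 c2 x2 v1 v2, Fintype.card_sum, pow_add]
    exact mul_le_mul ihK ihL (by positivity) (Rn_nonneg K)

/-- a convex body with a large inscribed product of low dimensional bodies -/
theorem Rn_ge_of_lowProd {ι : Type} {i : Fintype ι} {P K : Set (ι → ℝ)} (h : LowProd ι i P)
    (hK : IsCompact K) (hKc : Convex ℝ K) (hsub : P ⊆ K) :
    (2 : ℝ) ^ Fintype.card ι * (vol P / vol K) ^ (Fintype.card ι - 1) ≤ Rn K := by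
  obtain ⟨_, c1, x1, v1, _⟩ := h.props
  refine le_trans ?_ (Rn_ge_of_subset c1 x1 hK hKc hsub v1)
  exact mul_le_mul_of_nonneg_right h.two_pow_le
    (pow_nonneg (div_nonneg ENNReal.toReal_nonneg ENNReal.toReal_nonneg) _)

theorem pet_three : petOf kapB 3 = 3 * Real.pi ^ 2 / 4 := by
  rw [petOf_kapB]
  obtain ⟨k0, k1, k2⟩ := kap_rec
  have h2 : kap 2 = Real.pi := by
    have := k2 0
    rw [k0] at this
    simp only [zero_add] at this
    rw [this]; push_cast; ring
  have h3 : kap 3 = 4 * Real.pi / 3 := by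
    have := k2 1
    rw [k1] at this
    rw [show (1 + 2 : ℕ) = 3 from rfl] at this
    rw [this]; push_cast; ring
  unfold petOf
  rw [show (3 - 1 : ℕ) = 2 from rfl, h2, h3]
  have := Real.pi_pos.ne'
  field_simp

/-- convex bodies in `ℝ^3` in which a cylinder over a planar convex body fills 97 per cent -/
theorem near_cylinder {C : Set (Fin 2 → ℝ)} (hC : IsCompact C) (hc : Convex ℝ C)
    (hi : (interior C).Nonempty) {a b : ℝ} (hab : a < b) {K : Set (Fin 2 ⊕ Fin 1 → ℝ)}
    (hK : IsCompact K) (hKc : Convex ℝ K) (hsub : prod C (seg1 a b) ⊆ K)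
    (hv : 97 / 100 * vol K ≤ vol (prod C (seg1 a b))) : petOf kapB 3 < Rn K := by
  have hL : LowProd (Fin 2 ⊕ Fin 1) inferInstance (prod C (seg1 a b)) :=
    LowProd.mul _ _ _ _ (LowProd.planar C hC hc hi) (LowProd.seg a b hab)
  have h1 := Rn_ge_of_lowProd hL hK hKc hsub
  obtain ⟨_, c1, x1, v1, _⟩ := hL.props
  have hvK : 0 < vol K :=
    lt_of_lt_of_le v1 (ENNReal.toReal_mono hK.measure_lt_top.ne (measure_mono hsub))
  have hr : (97 / 100 : ℝ) ≤ vol (prod C (seg1 a b)) / vol K := by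
    rw [le_div_iff₀ hvK]; exact hv
  have hcard : Fintype.card (Fin 2 ⊕ Fin 1) = 3 := by simp
  rw [hcard] at h1
  rw [pet_three]
  have h2 : (97 / 100 : ℝ) ^ (3 - 1) ≤ (vol (prod C (seg1 a b)) / vol K) ^ (3 - 1) :=
    pow_le_pow_left₀ (by norm_num) hr _
  have h3 := Real.pi_lt_d4
  have h4 := Real.pi_pos
  have h5 : Real.pi ^ 2 < 9.87 := by nlinarith
  norm_num at h1 h2 ⊢
  nlinarith

end P237
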