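import Vale.Agent.Lib.P237.Body
import Vale.Agent.Lib.P074u.PL

/-! # P237 units D1-D6: `R_2 ≥ 4` in the plane -/

namespace P237
open MeasureTheory
open scoped Pointwise

/-- D1: the parallelogram is the image of the unit square `Set.Icc 0 1` under
`z ↦ q + z 0 • d + z 1 • e`; `Measure.addHaar_image_linearMap` (determinant of a `2 × 2` matrix,
`Matrix.toLin'`, `LinearMap.det_toLin'`, `Matrix.det_fin_two`), `Real.volume_Icc_pi`. -/
theorem vol_parallelogram (q d e : Fin 2 → ℝ) :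
    vol {z : Fin 2 → ℝ | ∃ s ∈ Set.Icc (0 : ℝ) 1, ∃ t ∈ Set.Icc (0 : ℝ) 1, z = q + s • d + t • e}
      = |d 0 * e 1 - d 1 * e 0| := by
  set M : Matrix (Fin 2) (Fin 2) ℝ := !![d 0, e 0; d 1, e 1] with hM
  have hset : {z : Fin 2 → ℝ | ∃ s ∈ Set.Icc (0 : ℝ) 1, ∃ t ∈ Set.Icc (0 : ℝ) 1,
      z = q + s • d + t • e}
      = (fun z => q + z) '' ((Matrix.toLin' M) '' (Set.Icc (0 : Fin 2 → ℝ) 1)) := by
    ext z
    simp only [Set.mem_ofPred_eq, Set.mem_image, Set.mem_Icc]
    constructor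
    · rintro ⟨s, ⟨hs0, hs1⟩, t, ⟨ht0, ht1⟩, rfl⟩
      refine ⟨s • d + t • e, ⟨![s, t], ⟨?_, ?_⟩, ?_⟩, by rw [add_assoc]⟩
      · intro i; fin_cases i <;> simp [hs0, ht0]
      · intro i; fin_cases i <;> simp [hs1, ht1]
      · funext i
        fin_cases i <;> simp [hM, Matrix.toLin'_apply, Matrix.mulVec, dotProduct, Fin.sum_univ_two, mul_comm]
    · rintro ⟨y, ⟨c, ⟨hc0, hc1⟩, rfl⟩, rfl⟩
      refine ⟨c 0, ⟨hc0 0, hc1 0⟩, c 1, ⟨hc0 1, hc1 1⟩, ?_⟩
      funext i
      fin_cases i <;>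
        simp [hM, Matrix.toLin'_apply, Matrix.mulVec, dotProduct, Fin.sum_univ_two, add_assoc] <;>
        ring
  rw [vol, hset, Set.image_add_left, measure_preimage_add, Measure.addHaar_image_linearMap,
    LinearMap.det_toLin', Matrix.det_fin_two, Real.volume_Icc_pi]
  simp [hM, mul_comm]

/-- D2: for every `N ≥ 1` the set `C + [0, N u]` contains the parallelogram `[q,p] + [0, N u]`, so
`N hProj C u = hProj C (N u) ≥ N |det(p-q,u)| - |C|` (`hProj_smul`, `vol_parallelogram`);
divide by `N` and let `N → ∞`. -/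
theorem det_le_hProj {C : Set (Fin 2 → ℝ)} (hC : IsCompact C) (hc : Convex ℝ C) {p q : Fin 2 → ℝ}
    (hp : p ∈ C) (hq : q ∈ C) (u : Fin 2 → ℝ) :
    |(p 0 - q 0) * u 1 - (p 1 - q 1) * u 0| ≤ hProj C u := by
  set D : ℝ := |(p 0 - q 0) * u 1 - (p 1 - q 1) * u 0| with hD
  -- for every N : N * D - vol C ≤ N * hProj C u
  have key : ∀ N : ℕ, (N : ℝ) * D - vol C ≤ (N : ℝ) * hProj C u := by
    intro N
    have hsub : {z : Fin 2 → ℝ | ∃ s ∈ Set.Icc (0 : ℝ) 1, ∃ t ∈ Set.Icc (0 : ℝ) 1,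
        z = q + s • (p - q) + t • ((N : ℝ) • u)} ⊆ sweep C ((N : ℝ) • u) := by
      rintro z ⟨s, ⟨hs0, hs1⟩, t, ht, rfl⟩
      refine ⟨q + s • (p - q), ?_, t, ht, rfl⟩
      have := hc hq hp (sub_nonneg.2 hs1) hs0 (by ring)
      convert this using 1
      funext i
      simp only [Pi.add_apply, Pi.smul_apply, Pi.sub_apply, smul_eq_mul]
      ring
    have hfin : volume (sweep C ((N : ℝ) • u)) ≠ ⊤ := (isCompact_sweep hC _).measure_lt_top.ne
    have hle : vol {z : Fin 2 → ℝ | ∃ s ∈ Set.Icc (0 : ℝ) 1, ∃ t ∈ Set.Icc (0 : ℝ) 1,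
        z = q + s • (p - q) + t • ((N : ℝ) • u)} ≤ vol (sweep C ((N : ℝ) • u)) :=
      ENNReal.toReal_mono hfin (measure_mono hsub)
    rw [vol_parallelogram] at hle
    have e1 : |(p - q) 0 * ((N : ℝ) • u) 1 - (p - q) 1 * ((N : ℝ) • u) 0| = (N : ℝ) * D := by
      rw [hD, ← abs_of_nonneg (Nat.cast_nonneg N : (0 : ℝ) ≤ N), ← abs_mul]
      congr 1
      · simp only [Pi.sub_apply, Pi.smul_apply, smul_eq_mul]
        rw [abs_of_nonneg (Nat.cast_nonneg N : (0 : ℝ) ≤ N)]
        ring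
    rw [e1] at hle
    have h2 : hProj C ((N : ℝ) • u) = (N : ℝ) * hProj C u := hProj_smul hC hc u (Nat.cast_nonneg N)
    rw [← h2, hProj]
    linarith
  by_contra hlt
  push Not at hlt
  have hpos : 0 < D - hProj C u := by linarith
  obtain ⟨N, hN⟩ := exists_nat_gt (vol C / (D - hProj C u))
  have h1 := key N
  rw [div_lt_iff₀ hpos] at hN
  nlinarith

/-- the difference body rotated by a right angle -/
def rotDiff (C : Set (Fin 2 → ℝ)) : Set (Fin 2 → ℝ) :=
  {x | ∃ p ∈ C, ∃ q ∈ C, x = ![-(p 1 - q 1), p 0 - q 0]}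

/-- D3: from D2 (`Fin.sum_univ_two`, `le_abs_self`). -/
theorem rotDiff_subset {C : Set (Fin 2 → ℝ)} (hC : IsCompact C) (hc : Convex ℝ C) :
    rotDiff C ⊆ projBody C := by
  rintro x ⟨p, hp, q, hq, rfl⟩ u
  have h := det_le_hProj hC hc hp hq u
  have h2 := le_abs_self ((p 0 - q 0) * u 1 - (p 1 - q 1) * u 0)
  rw [Fin.sum_univ_two]
  simp only [Matrix.cons_val_zero, Matrix.cons_val_one]
  linarith

/-- D4: `rotDiff C` is the image of `C - C` under the rotation (determinant one). -/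
theorem vol_rotDiff (C : Set (Fin 2 → ℝ)) : vol (rotDiff C) = vol (C - C) := by
  let M : Matrix (Fin 2) (Fin 2) ℝ := !![0, -1; 1, 0]
  have himg : rotDiff C = (Matrix.toLin' M) '' (C - C) := by
    ext x
    constructor
    · rintro ⟨p, hp, q, hq, rfl⟩
      refine ⟨p - q, Set.sub_mem_sub hp hq, ?_⟩
      ext i
      fin_cases i <;> simp [M, Matrix.toLin'_apply, Matrix.mulVec, dotProduct, Fin.sum_univ_two]
    · rintro ⟨z, ⟨p, hp, q, hq, rfl⟩, rfl⟩
      refine ⟨p, hp, q, hq, ?_⟩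
      ext i
      fin_cases i <;> simp [M, Matrix.toLin'_apply, Matrix.mulVec, dotProduct, Fin.sum_univ_two]
  unfold vol
  rw [himg, Measure.addHaar_image_linearMap, LinearMap.det_toLin']
  simp [M, Matrix.det_fin_two]

/-- D5: Brunn-Minkowski for `C` and `-C` from the midpoint Prekopa-Leindler inequality
`Vale.Agent.Lib.P074u.plHalf_pi Vale.Agent.Lib.P074u.plHalf_real 2` applied to the indicators of
`C`, `-C` and `(1/2) • (C - C)` (compact sets, so measurable); `Measure.addHaar_smul`,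
`Measure.measure_neg`. -/
theorem four_mul_vol_le {C : Set (Fin 2 → ℝ)} (hC : IsCompact C) : 4 * vol C ≤ vol (C - C) := by
  have hPL := Vale.Agent.Lib.P074u.plHalf_pi Vale.Agent.Lib.P074u.plHalf_real 2
  have hCm : MeasurableSet C := hC.isClosed.measurableSet
  have hNm : MeasurableSet (-C) := hC.neg.isClosed.measurableSet
  have hD : IsCompact (C - C) := by
    rw [sub_eq_add_neg]
    exact hC.add hC.neg
  have hHc : IsCompact ((1 / 2 : ℝ) • (C - C)) := hD.smul _
  have hHm : MeasurableSet ((1 / 2 : ℝ) • (C - C)) := hHc.isClosed.measurableSet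
  have key := hPL (C.indicator 1) ((-C).indicator 1) (((1 / 2 : ℝ) • (C - C)).indicator 1)
    (measurable_one.indicator hCm) (measurable_one.indicator hNm) (measurable_one.indicator hHm) ?_
  · rw [lintegral_indicator_one hCm, lintegral_indicator_one hNm, lintegral_indicator_one hHm,
      Measure.measure_neg, Measure.addHaar_smul, Module.finrank_fintype_fun_eq_card] at key
    have k2 := ENNReal.toReal_mono (by
      apply ENNReal.pow_ne_top
      exact ENNReal.mul_ne_top ENNReal.ofReal_ne_top hD.measure_lt_top.ne) key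
    rw [ENNReal.toReal_mul, ENNReal.toReal_pow, ENNReal.toReal_mul,
      ENNReal.toReal_ofReal (abs_nonneg _)] at k2
    have e : |((1 / 2 : ℝ)) ^ Fintype.card (Fin 2)| = 1 / 4 := by
      simp only [Fintype.card_fin]
      rw [abs_of_nonneg (by positivity)]
      norm_num
    rw [e] at k2
    change vol C * vol C ≤ (1 / 4 * vol (C - C)) ^ 2 at k2
    have h0 : 0 ≤ vol C := ENNReal.toReal_nonneg
    have h1 : 0 ≤ vol (C - C) := ENNReal.toReal_nonneg
    by_contra hcon
    push Not at hcon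
    nlinarith
  · intro x y
    by_cases hx : x ∈ C
    · by_cases hy : y ∈ -C
      · have hmem : (1 / 2 : ℝ) • (x + y) ∈ (1 / 2 : ℝ) • (C - C) := by
          refine Set.smul_mem_smul_set ?_
          have : x + y = x - (-y) := by abel
          rw [this]
          exact Set.sub_mem_sub hx (by simpa using hy)
        rw [Set.indicator_of_mem hx, Set.indicator_of_mem hy, Set.indicator_of_mem hmem]
        simp
      · simp [Set.indicator_of_notMem hy]
    · simp [Set.indicator_of_notMem hx]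

/-- D6: from D3, D4, D5 and `volume_projBody_lt_top`. -/
theorem four_le_Rn {C : Set (Fin 2 → ℝ)} (hC : IsCompact C) (hc : Convex ℝ C) (hv : 0 < vol C) :
    4 ≤ Rn C := by
  unfold Rn
  have h1 : vol (rotDiff C) ≤ vol (projBody C) := by
    unfold vol
    exact ENNReal.toReal_mono (volume_projBody_lt_top C).ne (measure_mono (rotDiff_subset hC hc))
  have h2 := four_mul_vol_le hC
  rw [← vol_rotDiff] at h2
  have e : Fintype.card (Fin 2) - 1 = 1 := by simp
  rw [e, pow_one, le_div_iff₀ hv]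
  linarith

end P237
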