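import Vale.Agent.Lib.P237.Defs

/-! # P237 units K1-K4: the constants `κ_{n-1}^n κ_n^{2-n}` are submultiplicative

`rho n = ∫_0^π sin^n = κ_n / κ_{n-1}`. -/

namespace P237
open MeasureTheory

noncomputable def rho (n : ℕ) : ℝ := ∫ x in (0 : ℝ)..Real.pi, Real.sin x ^ n

/-- K1a: `integral_sin_pow_pos`. -/
theorem rho_pos (n : ℕ) : 0 < rho n := by
  exact integral_sin_pow_pos n

/-- K1b -/
theorem rho_zero : rho 0 = Real.pi := by
  simp [rho]

/-- K1c -/
theorem rho_one : rho 1 = 2 := by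
  simp [rho]
  norm_num

/-- K1d: `integral_sin_pow`. -/
theorem rho_succ_succ (n : ℕ) : rho (n + 2) = (n + 1) / (n + 2) * rho n := by
  unfold rho
  rw [integral_sin_pow]
  simp

/-- K1e: induction from K1b-K1d. -/
theorem rho_mul_succ (n : ℕ) : rho n * rho (n + 1) = 2 * Real.pi / (n + 1) := by
  induction n with
  | zero => rw [rho_zero, rho_one]; simp; ring
  | succ k ih =>
    rw [show k + 1 + 1 = k + 2 from rfl, rho_succ_succ k]
    have h1 : (k : ℝ) + 1 ≠ 0 := by positivity
    have h2 : (k : ℝ) + 2 ≠ 0 := by positivity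
    have : rho (k + 1) * (((k : ℝ) + 1) / (k + 2) * rho k) =
        ((k : ℝ) + 1) / (k + 2) * (rho k * rho (k + 1)) := by ring
    rw [this, ih]
    push_cast
    field_simp
    ring

/-- K2: for every real `t`, `rho n + 2 t rho (n+1) + t^2 rho (n+2) = ∫_0^π sin^n (1 + t sin)^2 ≥ 0`
(`intervalIntegral.integral_nonneg`, `Real.sin_nonneg_of_nonneg_of_le_pi`); then
`discrim_le_zero`. -/
theorem rho_logconvex (n : ℕ) : rho (n + 1) ^ 2 ≤ rho n * rho (n + 2) := by
  have key : ∀ t : ℝ, 0 ≤ rho (n + 2) * (t * t) + 2 * rho (n + 1) * t + rho n := by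
    intro t
    have h0 : 0 ≤ ∫ x in (0 : ℝ)..Real.pi, Real.sin x ^ n * (1 + t * Real.sin x) ^ 2 := by
      refine intervalIntegral.integral_nonneg Real.pi_pos.le fun x hx => ?_
      exact mul_nonneg (pow_nonneg (Real.sin_nonneg_of_nonneg_of_le_pi hx.1 hx.2) _) (sq_nonneg _)
    have h1 : (∫ x in (0 : ℝ)..Real.pi, Real.sin x ^ n * (1 + t * Real.sin x) ^ 2) =
        rho (n + 2) * (t * t) + 2 * rho (n + 1) * t + rho n := by
      have e : ∀ x : ℝ, Real.sin x ^ n * (1 + t * Real.sin x) ^ 2 =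
          (Real.sin x ^ (n + 2) * (t * t) + Real.sin x ^ (n + 1) * (2 * t)) + Real.sin x ^ n := by
        intro x; ring
      simp_rw [e]
      have c : ∀ k : ℕ, IntervalIntegrable (fun x => Real.sin x ^ k) volume 0 Real.pi :=
        fun k => (Real.continuous_sin.pow k).intervalIntegrable _ _
      rw [intervalIntegral.integral_add (((c _).mul_const _).add ((c _).mul_const _)) (c _),
        intervalIntegral.integral_add ((c _).mul_const _) ((c _).mul_const _),
        intervalIntegral.integral_mul_const, intervalIntegral.integral_mul_const]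
      unfold rho
      ring
    rw [← h1]; exact h0
  have := discrim_le_zero key
  unfold discrim at this
  nlinarith [this]

/-- `κ_n` as a product -/
noncomputable def kap (n : ℕ) : ℝ := ∏ k ∈ Finset.range n, rho (k + 1)

/-- `κ_{n-1}^n κ_n^{2-n}` for a sequence `κ` -/
noncomputable def petOf (κ : ℕ → ℝ) (n : ℕ) : ℝ := κ (n - 1) ^ n * κ n ^ 2 / κ n ^ n

theorem kap_pos (n : ℕ) : 0 < kap n := Finset.prod_pos fun k _ => rho_pos (k + 1)

theorem pet_pos (n : ℕ) : 0 < petOf kap n := by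
  unfold petOf
  have h1 := kap_pos (n - 1)
  have h2 := kap_pos n
  positivity

noncomputable def aa (n : ℕ) : ℝ := petOf kap (n + 1) / petOf kap n

theorem kap_succ (n : ℕ) : kap (n + 1) = kap n * rho (n + 1) := by
  unfold kap
  rw [Finset.prod_range_succ]

theorem kap_zero : kap 0 = 1 := by
  simp [kap]

theorem pet_succ (n : ℕ) : petOf kap (n + 1) = kap (n + 1) ^ 2 / rho (n + 1) ^ (n + 1) := by
  unfold petOf
  have h1 := (kap_pos n).ne'
  have h2 := (rho_pos (n + 1)).ne'
  rw [Nat.add_sub_cancel, kap_succ, mul_pow (kap n) (rho (n + 1)) (n + 1)]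
  field_simp

/-- K3a: `petOf kap 0 = 1`, `petOf kap 1 = 2`, `petOf kap 2 = 4`. -/
theorem pet_small : petOf kap 0 = 1 ∧ petOf kap 1 = 2 ∧ petOf kap 2 = 4 := by
  refine ⟨?_, ?_, ?_⟩
  · simp [petOf, kap_zero]
  · rw [pet_succ 0, kap_succ, kap_zero, rho_one]; norm_num
  · have h2 := (rho_pos 2).ne'
    rw [pet_succ 1, kap_succ, kap_succ, kap_zero, rho_one]
    simp only [Nat.reduceAdd]
    field_simp
    norm_num

/-- K3b: `kap (n+1) = kap n * rho (n+1)` (`Finset.prod_range_succ`), `field_simp`. -/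
theorem aa_formula (n : ℕ) : aa (n + 1) = rho (n + 1) ^ (n + 1) / rho (n + 2) ^ n := by
  unfold aa
  have h0 := (kap_pos (n + 1)).ne'
  have h1 := (rho_pos (n + 1)).ne'
  have h2 := (rho_pos (n + 2)).ne'
  rw [pet_succ (n + 1), pet_succ n, kap_succ (n + 1), show n + 1 + 1 = n + 2 from rfl,
    pow_add (rho (n + 2)) n 2]
  field_simp

/-- K3c: `aa 2 = rho 2 ^ 2 / rho 3 = (π/2)^2 / (4/3) = 3 π^2 / 16 < 2` (`Real.pi_lt_d2`). -/
theorem aa_two_lt : aa 2 < 2 := by
  have e := aa_formula 1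
  have r2 : rho 2 = Real.pi / 2 := by
    have := rho_succ_succ 0
    rw [rho_zero] at this
    simp only [zero_add] at this
    rw [this]; push_cast; ring
  have r3 : rho 3 = 4 / 3 := by
    have := rho_succ_succ 1
    rw [rho_one] at this
    simp only [Nat.reduceAdd] at this
    rw [this]; push_cast; norm_num
  simp only [Nat.reduceAdd] at e
  rw [e, r2, r3]
  have h1 := Real.pi_lt_d2
  have h0 := Real.pi_pos
  have : Real.pi ^ 2 < 3.15 ^ 2 := by
    apply pow_lt_pow_left₀ h1 h0.le (by norm_num)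
  norm_num at this ⊢
  nlinarith

/-- K3d -/
theorem aa_succ_le (n : ℕ) : aa (n + 1) ≤ aa n := by
  obtain ⟨p0, p1, p2⟩ := pet_small
  rcases n with _ | k
  · unfold aa
    simp only [zero_add, Nat.reduceAdd]
    rw [p0, p1, p2]; norm_num
  · have e1 := aa_formula (k + 1)
    have e2 := aa_formula k
    rw [show k + 1 + 1 = k + 2 from rfl, show k + 1 + 2 = k + 3 from rfl] at e1
    rw [show k + 1 + 1 = k + 2 from rfl, e1, e2]
    have h1 := rho_pos (k + 1)
    have h2 := rho_pos (k + 2)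
    have h3 := rho_pos (k + 3)
    rw [div_le_div_iff₀ (by positivity) (by positivity)]
    have hl := rho_logconvex (k + 1)
    rw [show k + 1 + 1 = k + 2 from rfl, show k + 1 + 2 = k + 3 from rfl] at hl
    have := pow_le_pow_left₀ (by positivity) hl (k + 1)
    calc rho (k + 2) ^ (k + 2) * rho (k + 2) ^ k = (rho (k + 2) ^ 2) ^ (k + 1) := by
          rw [← pow_add, ← pow_mul]; congr 1; ring
      _ ≤ (rho (k + 1) * rho (k + 3)) ^ (k + 1) := this
      _ = rho (k + 1) ^ (k + 1) * rho (k + 3) ^ (k + 1) := by rw [mul_pow]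

theorem aa_antitone : Antitone aa := antitone_nat_of_succ_le aa_succ_le

theorem aa_pos (n : ℕ) : 0 < aa n := div_pos (pet_pos _) (pet_pos _)

theorem pet_step (n : ℕ) : petOf kap (n + 1) = aa n * petOf kap n := by
  unfold aa
  rw [div_mul_cancel₀ _ (pet_pos n).ne']

/-- K4a -/
theorem pet_add_le (n m : ℕ) : petOf kap (n + m) ≤ petOf kap n * petOf kap m := by
  induction m with
  | zero => rw [pet_small.1]; simp
  | succ m ih =>
    rw [← add_assoc, pet_step (n + m), pet_step m]
    have h1 : aa (n + m) ≤ aa m := aa_antitone (Nat.le_add_left m n)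
    calc aa (n + m) * petOf kap (n + m) ≤ aa m * (petOf kap n * petOf kap m) :=
          mul_le_mul h1 ih (pet_pos _).le (aa_pos _).le
      _ = petOf kap n * (aa m * petOf kap m) := by ring

theorem pet_add_lt_aux (n m : ℕ) (hn : 2 ≤ n) :
    petOf kap (n + (m + 1)) < petOf kap n * petOf kap (m + 1) := by
  induction m with
  | zero =>
    rw [zero_add, pet_small.2.1, pet_step n]
    have h1 : aa n ≤ aa 2 := aa_antitone hn
    have h2 := aa_two_lt
    have h3 := pet_pos n
    nlinarith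
  | succ m ih =>
    rw [← add_assoc, pet_step (n + (m + 1)), pet_step (m + 1)]
    have h1 : aa (n + (m + 1)) ≤ aa (m + 1) := aa_antitone (Nat.le_add_left _ n)
    calc aa (n + (m + 1)) * petOf kap (n + (m + 1))
        < aa (n + (m + 1)) * (petOf kap n * petOf kap (m + 1)) :=
          mul_lt_mul_of_pos_left ih (aa_pos _)
      _ ≤ aa (m + 1) * (petOf kap n * petOf kap (m + 1)) :=
          mul_le_mul_of_nonneg_right h1 (mul_pos (pet_pos _) (pet_pos _)).le
      _ = petOf kap n * (aa (m + 1) * petOf kap (m + 1)) := by ring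

/-- K4b -/
theorem pet_add_lt (n m : ℕ) (hn : 1 ≤ n) (hm : 1 ≤ m) (h : 3 ≤ n + m) :
    petOf kap (n + m) < petOf kap n * petOf kap m := by
  by_cases h2 : 2 ≤ n
  · obtain ⟨m', rfl⟩ : ∃ m', m = m' + 1 := ⟨m - 1, by omega⟩
    exact pet_add_lt_aux n m' h2
  · have hm2 : 2 ≤ m := by omega
    obtain ⟨n', rfl⟩ : ∃ n', n = n' + 1 := ⟨n - 1, by omega⟩
    rw [add_comm, mul_comm]
    exact pet_add_lt_aux m n' hm2

end P237
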