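import Vale.Agent.Lib.P237.Line

/-! # P237: sanity check of the definition of `hProj`

For a convex body `K ⊆ ℝ^ι × ℝ` and the vertical direction, `|K + [0,(0,w)]| - |K|` is `|w|` times
the volume of the orthogonal projection of `K` to `ℝ^ι` (Cavalieri). -/

namespace P237
open MeasureTheory
variable {ι : Type*} [Fintype ι]

/-- the orthogonal projection of `K ⊆ ℝ^ι × ℝ` to `ℝ^ι` -/
def shadow (K : Set (ι ⊕ Fin 1 → ℝ)) : Set (ι → ℝ) := {x | ∃ y : Fin 1 → ℝ, Sum.elim x y ∈ K}

/-- the vertical fibre of `K` over `x` -/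
def fibre (K : Set (ι ⊕ Fin 1 → ℝ)) (x : ι → ℝ) : Set (Fin 1 → ℝ) := {y | Sum.elim x y ∈ K}

theorem continuous_elim (x : ι → ℝ) : Continuous (fun y : Fin 1 → ℝ => (Sum.elim x y : ι ⊕ Fin 1 → ℝ)) := by
  refine continuous_pi fun i => ?_
  rcases i with i | j
  · exact continuous_const
  · exact continuous_apply j

theorem isCompact_shadow {K : Set (ι ⊕ Fin 1 → ℝ)} (hK : IsCompact K) : IsCompact (shadow K) := by
  have : shadow K = (fun z : ι ⊕ Fin 1 → ℝ => fun i => z (Sum.inl i)) '' K := by
    ext x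
    constructor
    · rintro ⟨y, hy⟩
      exact ⟨_, hy, by ext i; simp⟩
    · rintro ⟨z, hz, rfl⟩
      refine ⟨fun j => z (Sum.inr j), ?_⟩
      have : Sum.elim (fun i => z (Sum.inl i)) (fun j => z (Sum.inr j)) = z := by
        ext i; rcases i with i | j <;> simp
      rw [this]; exact hz
  rw [this]
  exact hK.image (continuous_pi fun i => continuous_apply _)

theorem fibre_eq_seg1 {K : Set (ι ⊕ Fin 1 → ℝ)} (hK : IsCompact K) (hc : Convex ℝ K) (x : ι → ℝ)
    (h : x ∈ shadow K) : ∃ a b : ℝ, a ≤ b ∧ fibre K x = seg1 a b := by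
  -- the set of heights
  let T : Set ℝ := {s | Sum.elim x (fun _ : Fin 1 => s) ∈ K}
  have hcont : Continuous (fun s : ℝ => (Sum.elim x (fun _ : Fin 1 => s) : ι ⊕ Fin 1 → ℝ)) := by
    refine continuous_pi fun i => ?_
    rcases i with i | j
    · exact continuous_const
    · exact continuous_id
  have hTclosed : IsClosed T := hK.isClosed.preimage hcont
  have hTbdd : Bornology.IsBounded T := by
    obtain ⟨R, hR⟩ := hK.isBounded.subset_closedBall 0
    refine (Metric.isBounded_closedBall (x := (0 : ℝ)) (r := R)).subset ?_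
    intro s hs
    have h1 := hR hs
    rw [mem_closedBall_zero_iff] at h1 ⊢
    exact le_trans (by simpa using norm_le_pi_norm (Sum.elim x (fun _ : Fin 1 => s)) (Sum.inr 0)) h1
  have hTc : IsCompact T := Metric.isCompact_of_isClosed_isBounded hTclosed hTbdd
  have hTconv : Convex ℝ T := by
    intro s hs t ht a b ha hb hab
    have := hc hs ht ha hb hab
    have e : a • (Sum.elim x (fun _ : Fin 1 => s) : ι ⊕ Fin 1 → ℝ) + b • Sum.elim x (fun _ : Fin 1 => t)
        = Sum.elim x (fun _ : Fin 1 => a • s + b • t) := by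
      ext i
      rcases i with i | j
      · simp only [Pi.add_apply, Pi.smul_apply, Sum.elim_inl, smul_eq_mul]
        rw [← add_mul, hab, one_mul]
      · simp
    rw [e] at this
    exact this
  have hTne : T.Nonempty := by
    obtain ⟨y, hy⟩ := h
    refine ⟨y 0, ?_⟩
    have : (fun _ : Fin 1 => y 0) = y := by
      ext j; rw [Subsingleton.elim j 0]
    change Sum.elim x (fun _ : Fin 1 => y 0) ∈ K
    rw [this]; exact hy
  have hT := eq_Icc_of_connected_compact ⟨hTne, hTconv.isPreconnected⟩ hTc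
  refine ⟨sInf T, sSup T, ?_, ?_⟩
  · obtain ⟨t, ht⟩ := hTne
    rw [hT] at ht
    exact ht.1.trans ht.2
  · ext y
    have hy : (fun _ : Fin 1 => y 0) = y := by
      ext j; rw [Subsingleton.elim j 0]
    have h1 : y ∈ fibre K x ↔ y 0 ∈ T := by
      change Sum.elim x y ∈ K ↔ Sum.elim x (fun _ : Fin 1 => y 0) ∈ K
      rw [hy]
    rw [h1]
    constructor
    · intro h2
      rw [hT] at h2
      exact h2
    · intro h2
      rw [hT]
      exact h2

theorem slice_sweep (K : Set (ι ⊕ Fin 1 → ℝ)) (x : ι → ℝ) (w : Fin 1 → ℝ) :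
    {y : Fin 1 → ℝ | Sum.elim x y ∈ sweep K (Sum.elim 0 w)} = sweep (fibre K x) w := by
  ext y
  constructor
  · rintro ⟨z, hz, t, ht, he⟩
    refine ⟨fun j => z (Sum.inr j), ?_, t, ht, ?_⟩
    · have : Sum.elim x (fun j => z (Sum.inr j)) = z := by
        ext i
        rcases i with i | j
        · have := congrFun he (Sum.inl i)
          simpa using this
        · simp
      change Sum.elim x (fun j => z (Sum.inr j)) ∈ K
      rw [this]; exact hz
    · ext j
      have := congrFun he (Sum.inr j)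
      simpa using this
  · rintro ⟨y0, hy0, t, ht, rfl⟩
    refine ⟨Sum.elim x y0, hy0, t, ht, ?_⟩
    ext i
    rcases i with i | j <;> simp

theorem volume_sweep_fibre {K : Set (ι ⊕ Fin 1 → ℝ)} (hK : IsCompact K) (hc : Convex ℝ K)
    (x : ι → ℝ) (w : Fin 1 → ℝ) :
    volume (sweep (fibre K x) w)
      = volume (fibre K x) + (shadow K).indicator (fun _ => ENNReal.ofReal |w 0|) x := by
  by_cases hx : x ∈ shadow K
  · obtain ⟨a, b, hab, he⟩ := fibre_eq_seg1 hK hc x hx
    rw [Set.indicator_of_mem hx, he]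
    have h1 := hProj_seg1 hab w
    unfold hProj vol at h1
    have f1 : volume (sweep (seg1 a b) w) ≠ ⊤ := (isCompact_sweep (isCompact_seg1 a b) w).measure_lt_top.ne
    have f2 : volume (seg1 a b) ≠ ⊤ := (isCompact_seg1 a b).measure_lt_top.ne
    rw [← ENNReal.ofReal_toReal f1, ← ENNReal.ofReal_toReal f2,
      ← ENNReal.ofReal_add ENNReal.toReal_nonneg (abs_nonneg _)]
    congr 1
    linarith
  · have he : fibre K x = ∅ := by
      ext y
      simp only [Set.mem_empty_iff_false, iff_false]
      exact fun hy => hx ⟨y, hy⟩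
    rw [Set.indicator_of_notMem hx, he]
    have : sweep (∅ : Set (Fin 1 → ℝ)) w = ∅ := by
      ext y; simp [sweep]
    rw [this]; simp

/-- Cavalieri: in the vertical direction `hProj` is `|w|` times the volume of the projection. -/
theorem hProj_vertical {K : Set (ι ⊕ Fin 1 → ℝ)} (hK : IsCompact K) (hc : Convex ℝ K)
    (w : Fin 1 → ℝ) : hProj K (Sum.elim 0 w) = |w 0| * vol (shadow K) := by
  have hS := isCompact_sweep hK (Sum.elim (0 : ι → ℝ) w)
  have e1 := volume_eq_lintegral_slice (sweep K (Sum.elim (0 : ι → ℝ) w)) hS.isClosed.measurableSet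
  have e2 := volume_eq_lintegral_slice K hK.isClosed.measurableSet
  simp_rw [slice_sweep, volume_sweep_fibre hK hc] at e1
  have hSm : MeasurableSet (shadow K) := (isCompact_shadow hK).isClosed.measurableSet
  rw [lintegral_add_right _ (measurable_const.indicator hSm), lintegral_indicator_const hSm] at e1
  change volume K = ∫⁻ x, volume (fibre K x) at e2
  rw [← e2] at e1
  unfold hProj vol
  rw [e1, ENNReal.toReal_add hK.measure_lt_top.ne
    (ENNReal.mul_ne_top ENNReal.ofReal_ne_top (isCompact_shadow hK).measure_lt_top.ne),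
    ENNReal.toReal_mul, ENNReal.toReal_ofReal (abs_nonneg _)]
  ring

/-- `hProj` is equivariant under linear maps (in particular invariant under rotations). -/
theorem hProj_image (A : (ι → ℝ) →ₗ[ℝ] (ι → ℝ)) (K : Set (ι → ℝ)) (u : ι → ℝ) :
    hProj (A '' K) (A u) = |LinearMap.det A| * hProj K u := by
  have h : sweep (A '' K) (A u) = A '' sweep K u := by
    ext z
    constructor
    · rintro ⟨_, ⟨x, hx, rfl⟩, t, ht, rfl⟩
      exact ⟨x + t • u, ⟨x, hx, t, ht, rfl⟩, by simp⟩
    · rintro ⟨_, ⟨x, hx, t, ht, rfl⟩, rfl⟩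
      exact ⟨A x, ⟨x, hx, rfl⟩, t, ht, by simp⟩
  unfold hProj vol
  rw [h, Measure.addHaar_image_linearMap, Measure.addHaar_image_linearMap, ENNReal.toReal_mul,
    ENNReal.toReal_mul, ENNReal.toReal_ofReal (abs_nonneg _)]
  ring

end P237
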