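import Vale.Agent.Lib.P237.Sweep

/-! # P237 units B1-B6: the volume of `(K × L) + [0,(u,w)]` by slicing -/

namespace P237
open MeasureTheory
variable {ι κ : Type*} [Fintype ι] [Fintype κ]

/-- B1 -/
theorem tset_nonempty_iff (K : Set (ι → ℝ)) (u x : ι → ℝ) :
    (tset K u x).Nonempty ↔ x ∈ sweep K u := by
  constructor
  · rintro ⟨t, ht, hx⟩
    exact ⟨x - t • u, hx, t, ht, by abel⟩
  · rintro ⟨x', hx', t, ht, rfl⟩
    refine ⟨t, ht, ?_⟩
    have : x' + t • u - t • u = x' := by abel
    rw [this]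
    exact hx'

theorem continuous_line (u x : ι → ℝ) : Continuous (fun t : ℝ => x - t • u) := by
  fun_prop

theorem isCompact_tset {K : Set (ι → ℝ)} (hK : IsCompact K) (u x : ι → ℝ) :
    IsCompact (tset K u x) :=
  isCompact_Icc.inter_right (hK.isClosed.preimage (continuous_line u x))

theorem convex_tset {K : Set (ι → ℝ)} (hc : Convex ℝ K) (u x : ι → ℝ) :
    Convex ℝ (tset K u x) := by
  intro s hs t ht a b ha hb hab
  refine ⟨convex_Icc (0 : ℝ) 1 hs.1 ht.1 ha hb hab, ?_⟩
  have h := hc hs.2 ht.2 ha hb hab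
  have e : x - (a • s + b • t) • u = a • (x - s • u) + b • (x - t • u) := by
    have hx : x = (a + b) • x := by rw [hab, one_smul]
    conv_lhs => rw [hx]
    simp only [smul_eq_mul, add_smul, smul_sub, mul_smul]
    abel
  rw [e]
  exact h

/-- B2: `tset K u x` is a compact convex subset of `ℝ` (preimage of `K` under a continuous affine
map, intersected with `[0,1]`), so it is `[sInf, sSup]`. -/
theorem tset_eq_Icc {K : Set (ι → ℝ)} (hK : IsCompact K) (hc : Convex ℝ K) (u x : ι → ℝ)
    (h : (tset K u x).Nonempty) : ∃ a b : ℝ, a ≤ b ∧ tset K u x = Set.Icc a b := by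
  have h1 : IsConnected (tset K u x) := ⟨h, (convex_tset hc u x).isPreconnected⟩
  have h2 := eq_Icc_of_connected_compact h1 (isCompact_tset hK u x)
  refine ⟨_, _, ?_, h2⟩
  obtain ⟨t, ht⟩ := h
  rw [h2] at ht
  exact ht.1.trans ht.2

/-- B3 -/
theorem slice_eq (K : Set (ι → ℝ)) (L : Set (κ → ℝ)) (u x : ι → ℝ) (w : κ → ℝ) :
    {y : κ → ℝ | Sum.elim x y ∈ sweep (prod K L) (Sum.elim u w)} = sweepI L w (tset K u x) := by
  ext y
  constructor
  · rintro ⟨z, ⟨hz1, hz2⟩, t, ht, hxy⟩
    refine ⟨t, ⟨ht, ?_⟩, ?_⟩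
    · have : x - t • u = fun i => z (Sum.inl i) := by
        funext i
        have := congrFun hxy (Sum.inl i)
        simp only [Sum.elim_inl, Pi.add_apply, Pi.smul_apply, smul_eq_mul] at this
        simp only [Pi.sub_apply, Pi.smul_apply, smul_eq_mul]
        linarith
      rw [this]; exact hz1
    · have : y - t • w = fun j => z (Sum.inr j) := by
        funext j
        have := congrFun hxy (Sum.inr j)
        simp only [Sum.elim_inr, Pi.add_apply, Pi.smul_apply, smul_eq_mul] at this
        simp only [Pi.sub_apply, Pi.smul_apply, smul_eq_mul]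
        linarith
      rw [this]; exact hz2
  · rintro ⟨t, ⟨ht, hx⟩, hy⟩
    refine ⟨Sum.elim (x - t • u) (y - t • w), ⟨hx, hy⟩, t, ht, ?_⟩
    funext s
    rcases s with i | j
    · simp
    · simp

theorem isCompact_sweepI {L : Set (κ → ℝ)} (hL : IsCompact L) (w : κ → ℝ) (a b : ℝ) :
    IsCompact (sweepI L w (Set.Icc a b)) := by
  have h : sweepI L w (Set.Icc a b)
      = (fun p : (κ → ℝ) × ℝ => p.1 + p.2 • w) '' (L ×ˢ Set.Icc a b) := by
    ext y
    constructor
    · rintro ⟨t, ht, hy⟩
      exact ⟨(y - t • w, t), ⟨hy, ht⟩, by simp⟩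
    · rintro ⟨⟨y0, t⟩, ⟨hy0, ht⟩, rfl⟩
      refine ⟨t, ht, ?_⟩
      have : y0 + t • w - t • w = y0 := by abel
      simp only [this]
      exact hy0
  rw [h]
  exact (hL.prod isCompact_Icc).image (by fun_prop)

/-- B4: from B1, B2 and `vol_sweepI_Icc` (black boxes). -/
theorem volume_slice {K : Set (ι → ℝ)} {L : Set (κ → ℝ)} (hK : IsCompact K) (hKc : Convex ℝ K)
    (hL : IsCompact L) (hLc : Convex ℝ L) (u x : ι → ℝ) (w : κ → ℝ) :
    volume (sweepI L w (tset K u x))
      = (sweep K u).indicator (fun _ => volume L) x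
        + volume (tset K u x) * ENNReal.ofReal (hProj L w) := by
  by_cases hx : x ∈ sweep K u
  · obtain ⟨a, b, hab, hT⟩ := tset_eq_Icc hK hKc u x ((tset_nonempty_iff K u x).2 hx)
    rw [Set.indicator_of_mem hx, hT, Real.volume_Icc]
    have h1 := vol_sweepI_Icc hL hLc w hab
    have hfin : volume (sweepI L w (Set.Icc a b)) ≠ ⊤ := (isCompact_sweepI hL w a b).measure_lt_top.ne
    have hLfin : volume L ≠ ⊤ := hL.measure_lt_top.ne
    have h0 := hProj_nonneg hL w
    rw [← ENNReal.ofReal_toReal hfin, ← ENNReal.ofReal_toReal hLfin,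
      ← ENNReal.ofReal_mul (by linarith), ← ENNReal.ofReal_add ENNReal.toReal_nonneg
        (mul_nonneg (by linarith) h0)]
    congr 1
  · have hT : tset K u x = ∅ := by
      by_contra hne
      exact hx ((tset_nonempty_iff K u x).1 (Set.nonempty_iff_ne_empty.2 hne))
    rw [Set.indicator_of_notMem hx, hT]
    have : sweepI L w (∅ : Set ℝ) = ∅ := by
      ext y
      simp [sweepI]
    rw [this]
    simp

/-- B5: Tonelli for the indicator of the closed set `{(x,t) | t ∈ [0,1], x - t u ∈ K}`: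
`∫ |T(x)| dx = ∫_0^1 |K + t u| dt = |K|`. -/
theorem lintegral_tset {K : Set (ι → ℝ)} (hK : IsCompact K) (u : ι → ℝ) :
    ∫⁻ x, volume (tset K u x) = volume K := by
  set S : Set ((ι → ℝ) × ℝ) := {p | p.2 ∈ Set.Icc (0 : ℝ) 1 ∧ p.1 - p.2 • u ∈ K} with hS
  have hSm : MeasurableSet S := by
    have h1 : IsClosed S := by
      apply IsClosed.inter
      · exact isClosed_Icc.preimage continuous_snd
      · exact hK.isClosed.preimage (by fun_prop)
    exact h1.measurableSet
  have e1 := Measure.prod_apply (μ := (volume : Measure (ι → ℝ))) (ν := (volume : Measure ℝ)) hSm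
  have e2 := Measure.prod_apply_symm (μ := (volume : Measure (ι → ℝ)))
    (ν := (volume : Measure ℝ)) hSm
  have e3 : ∀ x : ι → ℝ, Prod.mk x ⁻¹' S = tset K u x := fun x => rfl
  have e4 : ∀ t : ℝ, volume ((fun x : ι → ℝ => (x, t)) ⁻¹' S)
      = (Set.Icc (0 : ℝ) 1).indicator (fun _ => volume K) t := by
    intro t
    by_cases ht : t ∈ Set.Icc (0 : ℝ) 1
    · rw [Set.indicator_of_mem ht]
      have : (fun x : ι → ℝ => (x, t)) ⁻¹' S = (fun x : ι → ℝ => x + (-(t • u))) ⁻¹' K := by
        ext x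
        simp only [hS, Set.mem_preimage, Set.mem_ofPred_eq, sub_eq_add_neg]
        exact ⟨fun h => h.2, fun h => ⟨ht, h⟩⟩
      rw [this, measure_preimage_add_right]
    · rw [Set.indicator_of_notMem ht]
      have : (fun x : ι → ℝ => (x, t)) ⁻¹' S = ∅ := by
        ext x
        simp only [hS, Set.mem_preimage, Set.mem_ofPred_eq, Set.mem_empty_iff_false, iff_false]
        exact fun h => ht h.1
      rw [this, measure_empty]
  simp only [e3] at e1
  simp only [e4] at e2
  rw [← e1, e2, lintegral_indicator_const measurableSet_Icc, Real.volume_Icc]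
  simp

/-- B6: `MeasureTheory.volume_measurePreserving_sumPiEquivProdPi` and `Measure.prod_apply`. -/
theorem volume_eq_lintegral_slice (S : Set (ι ⊕ κ → ℝ)) (hS : MeasurableSet S) :
    volume S = ∫⁻ x : ι → ℝ, volume {y : κ → ℝ | Sum.elim x y ∈ S} := by
  set e := MeasurableEquiv.sumPiEquivProdPi (fun _ : ι ⊕ κ => ℝ) with he
  have hmp := volume_measurePreserving_sumPiEquivProdPi (fun _ : ι ⊕ κ => ℝ)
  have h1 : volume S = volume (e.symm ⁻¹' S) := by
    have h2 := hmp.measure_preimage_equiv (e.symm ⁻¹' S)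
    rw [← h2]
    congr 1
    ext z
    simp [he]
  rw [h1, Measure.volume_eq_prod, Measure.prod_apply (e.symm.measurable hS)]
  refine lintegral_congr fun x => ?_
  congr 1

/-- B7: `Measure.prod_prod` (no measurability needed) and the same measure preserving map. -/
theorem volume_prod (A : Set (ι → ℝ)) (B : Set (κ → ℝ)) :
    volume (prod A B) = volume A * volume B := by
  set e := MeasurableEquiv.sumPiEquivProdPi (fun _ : ι ⊕ κ => ℝ) with he
  have hmp := volume_measurePreserving_sumPiEquivProdPi (fun _ : ι ⊕ κ => ℝ)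
  have hpre : prod A B = e ⁻¹' (A ×ˢ B) := by
    ext z
    rfl
  rw [hpre, hmp.measure_preimage_equiv, Measure.volume_eq_prod, Measure.prod_prod]

/-- B8 -/
theorem isCompact_prod {K : Set (ι → ℝ)} {L : Set (κ → ℝ)} (hK : IsCompact K) (hL : IsCompact L) :
    IsCompact (prod K L) := by
  have hcont : Continuous (fun p : (ι → ℝ) × (κ → ℝ) => (Sum.elim p.1 p.2 : ι ⊕ κ → ℝ)) := by
    refine continuous_pi (fun i => ?_)
    cases i with
    | inl i => exact (continuous_apply i).comp continuous_fst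
    | inr j => exact (continuous_apply j).comp continuous_snd
  have himg : prod K L = (fun p : (ι → ℝ) × (κ → ℝ) => (Sum.elim p.1 p.2 : ι ⊕ κ → ℝ)) '' (K ×ˢ L) := by
    ext z
    constructor
    · rintro ⟨h1, h2⟩
      refine ⟨(fun i => z (Sum.inl i), fun j => z (Sum.inr j)), ⟨h1, h2⟩, ?_⟩
      funext i
      cases i <;> rfl
    · rintro ⟨p, ⟨h1, h2⟩, rfl⟩
      exact ⟨h1, h2⟩
  rw [himg]
  exact (hK.prod hL).image hcont

/-- B9 -/
theorem convex_prod {K : Set (ι → ℝ)} {L : Set (κ → ℝ)} (hK : Convex ℝ K) (hL : Convex ℝ L) :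
    Convex ℝ (prod K L) := by
  intro z hz z' hz' a b ha hb hab
  exact ⟨hK hz.1 hz'.1 ha hb hab, hL hz.2 hz'.2 ha hb hab⟩

/-- B10: assembly of B3-B8 (black boxes): `lintegral_add_left`, `lintegral_indicator_const`,
`lintegral_mul_const`, then `toReal`. -/
theorem vol_sweep_prod {K : Set (ι → ℝ)} {L : Set (κ → ℝ)} (hK : IsCompact K) (hKc : Convex ℝ K)
    (hL : IsCompact L) (hLc : Convex ℝ L) (u : ι → ℝ) (w : κ → ℝ) :
    vol (sweep (prod K L) (Sum.elim u w)) = vol L * vol (sweep K u) + vol K * hProj L w := by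
  have hSm : MeasurableSet (sweep (prod K L) (Sum.elim u w)) :=
    (isCompact_sweep (isCompact_prod hK hL) _).measurableSet
  have hKs := isCompact_sweep hK u
  have h1 : volume (sweep (prod K L) (Sum.elim u w))
      = volume L * volume (sweep K u) + volume K * ENNReal.ofReal (hProj L w) := by
    rw [volume_eq_lintegral_slice _ hSm]
    simp only [slice_eq, volume_slice hK hKc hL hLc]
    rw [lintegral_add_left (measurable_const.indicator hKs.measurableSet),
      lintegral_indicator_const hKs.measurableSet,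
      lintegral_mul_const' _ _ ENNReal.ofReal_ne_top, lintegral_tset hK u]
  unfold vol
  rw [h1, ENNReal.toReal_add
    (ENNReal.mul_ne_top hL.measure_lt_top.ne hKs.measure_lt_top.ne)
    (ENNReal.mul_ne_top hK.measure_lt_top.ne ENNReal.ofReal_ne_top),
    ENNReal.toReal_mul, ENNReal.toReal_mul, ENNReal.toReal_ofReal (hProj_nonneg hL w)]

theorem vol_prod (A : Set (ι → ℝ)) (B : Set (κ → ℝ)) : vol (prod A B) = vol A * vol B := by
  unfold vol
  rw [volume_prod, ENNReal.toReal_mul]

/-- the support function of the projection body of a product -/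
theorem hProj_prod {K : Set (ι → ℝ)} {L : Set (κ → ℝ)} (hK : IsCompact K) (hKc : Convex ℝ K)
    (hL : IsCompact L) (hLc : Convex ℝ L) (u : ι → ℝ) (w : κ → ℝ) :
    hProj (prod K L) (Sum.elim u w) = vol L * hProj K u + vol K * hProj L w := by
  unfold hProj
  rw [vol_sweep_prod hK hKc hL hLc, vol_prod]
  unfold hProj
  ring

end P237
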