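import Vale.Agent.Lib.P237.Defs

/-! # P237 units A1-A3: `hProj K (t u) = t hProj K u` -/

namespace P237
open MeasureTheory
variable {ι : Type*} [Fintype ι]

/-- A1a: image of `K × [0,1]` under a continuous map. -/
theorem isCompact_sweep {K : Set (ι → ℝ)} (hK : IsCompact K) (u : ι → ℝ) :
    IsCompact (sweep K u) := by
  have h : sweep K u = (fun p : (ι → ℝ) × ℝ => p.1 + p.2 • u) '' (K ×ˢ Set.Icc (0 : ℝ) 1) := by
    ext z
    constructor
    · rintro ⟨x, hx, t, ht, rfl⟩
      exact ⟨(x, t), ⟨hx, ht⟩, rfl⟩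
    · rintro ⟨⟨x, t⟩, ⟨hx, ht⟩, rfl⟩
      exact ⟨x, hx, t, ht, rfl⟩
  rw [h]
  exact (hK.prod isCompact_Icc).image (by fun_prop)

/-- A1b -/
theorem subset_sweep (K : Set (ι → ℝ)) (u : ι → ℝ) : K ⊆ sweep K u := by
  intro x hx
  exact ⟨x, hx, 0, ⟨le_rfl, zero_le_one⟩, by simp⟩

/-- A1c -/
theorem hProj_zero (K : Set (ι → ℝ)) : hProj K 0 = 0 := by
  have h : sweep K (0 : ι → ℝ) = K := by
    ext z
    constructor
    · rintro ⟨x, hx, t, _, rfl⟩
      simpa using hx
    · intro hz
      exact subset_sweep K 0 hz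
  simp [hProj, h]

/-- A1d -/
theorem hProj_nonneg {K : Set (ι → ℝ)} (hK : IsCompact K) (u : ι → ℝ) : 0 ≤ hProj K u := by
  unfold hProj vol
  have h := ENNReal.toReal_mono (isCompact_sweep hK u).measure_lt_top.ne
    (measure_mono (μ := volume) (subset_sweep K u))
  linarith

theorem sweep_smul10 (K : Set (ι → ℝ)) (u : ι → ℝ) {a : ℝ} (ha : 0 ≤ a) :
    sweep K (a • u) = {z | ∃ x ∈ K, ∃ r ∈ Set.Icc (0 : ℝ) a, z = x + r • u} := by
  ext z
  constructor
  · rintro ⟨x, hx, t, ⟨ht0, ht1⟩, rfl⟩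
    refine ⟨x, hx, t * a, ⟨mul_nonneg ht0 ha, ?_⟩, by rw [smul_smul]⟩
    nlinarith
  · rintro ⟨x, hx, r, ⟨hr0, hr1⟩, rfl⟩
    rcases eq_or_lt_of_le ha with h0 | h0
    · have : r = 0 := by linarith
      subst this
      exact ⟨x, hx, 0, ⟨le_rfl, zero_le_one⟩, by simp⟩
    · refine ⟨x, hx, r / a, ⟨div_nonneg hr0 ha, (div_le_one h0).2 hr1⟩, ?_⟩
      rw [smul_smul, div_mul_cancel₀ _ h0.ne']

/-- A2: `K + [0,(s+t)u] = (K + [0,su]) ∪ (su + (K + [0,tu]))`, and by convexity the intersection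
is `su + K`; `measure_union_add_inter`, translation invariance (`measure_preimage_add` or
`Measure.addHaar_image ...`), all volumes finite by compactness. -/
theorem hProj_add {K : Set (ι → ℝ)} (hK : IsCompact K) (hc : Convex ℝ K) (u : ι → ℝ) {s t : ℝ}
    (hs : 0 ≤ s) (ht : 0 ≤ t) :
    hProj K ((s + t) • u) = hProj K (s • u) + hProj K (t • u) := by
  set A := sweep K (s • u) with hA
  set B := (fun z : ι → ℝ => s • u + z) '' sweep K (t • u) with hB
  have hU : sweep K ((s + t) • u) = A ∪ B := by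
    rw [hA, hB, sweep_smul10 K u (add_nonneg hs ht), sweep_smul10 K u hs, sweep_smul10 K u ht]
    ext z
    constructor
    · rintro ⟨x, hx, r, ⟨hr0, hr1⟩, rfl⟩
      rcases le_total r s with h | h
      · exact Or.inl ⟨x, hx, r, ⟨hr0, h⟩, rfl⟩
      · refine Or.inr ⟨x + (r - s) • u, ⟨x, hx, r - s, ⟨by linarith, by linarith⟩, rfl⟩, ?_⟩
        simp only [sub_smul]
        abel
    · rintro (⟨x, hx, r, ⟨hr0, hr1⟩, rfl⟩ | ⟨_, ⟨x, hx, r, ⟨hr0, hr1⟩, rfl⟩, rfl⟩)
      · exact ⟨x, hx, r, ⟨hr0, by linarith⟩, rfl⟩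
      · refine ⟨x, hx, s + r, ⟨by linarith, by linarith⟩, ?_⟩
        simp only [add_smul]
        abel
  have hI : A ∩ B = (fun z : ι → ℝ => s • u + z) '' K := by
    rw [hA, hB, sweep_smul10 K u hs, sweep_smul10 K u ht]
    ext z
    constructor
    · rintro ⟨⟨x, hx, r, ⟨hr0, hr1⟩, hz⟩, ⟨_, ⟨x', hx', r', ⟨hr0', hr1'⟩, rfl⟩, hz'⟩⟩
      -- z = x + r u = s u + x' + r' u
      have e : x = x' + (s + r' - r) • u := by
        have : x + r • u = s • u + (x' + r' • u) := by rw [← hz, ← hz']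
        have h2 : x = s • u + (x' + r' • u) - r • u := by rw [← this]; abel
        rw [h2]
        simp only [add_smul, sub_smul]
        abel
      refine ⟨x' + r' • u, ?_, hz'⟩
      rcases eq_or_lt_of_le (show 0 ≤ s + r' - r by linarith) with h0 | h0
      · have hr' : r' = 0 := by linarith
        rw [hr']
        simpa using hx'
      · -- x' + r' u is on the segment from x' to x
        have hl0 : 0 ≤ r' / (s + r' - r) := div_nonneg hr0' h0.le
        have hl1 : r' / (s + r' - r) ≤ 1 := (div_le_one h0).2 (by linarith)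
        have hmem := hc hx' hx (sub_nonneg.2 hl1) hl0 (by ring)
        have e2 : (1 - r' / (s + r' - r)) • x' + (r' / (s + r' - r)) • x = x' + r' • u := by
          rw [e, smul_add, smul_smul, div_mul_cancel₀ _ h0.ne', sub_smul, one_smul]
          abel
        rwa [e2] at hmem
    · rintro ⟨x, hx, rfl⟩
      refine ⟨⟨x, hx, s, ⟨hs, le_rfl⟩, by abel⟩, ⟨x, ⟨x, hx, 0, ⟨le_rfl, ht⟩, by simp⟩, rfl⟩⟩
  have hBm : MeasurableSet B := by
    rw [hB]
    exact ((isCompact_sweep hK (t • u)).image (by fun_prop)).isClosed.measurableSet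
  have hvB : volume B = volume (sweep K (t • u)) := by
    rw [hB]
    simp only [Set.image_add_left]
    exact measure_preimage_add volume _ _
  have hvI : volume (A ∩ B) = volume K := by
    rw [hI]
    simp only [Set.image_add_left]
    exact measure_preimage_add volume _ _
  have hmain := measure_union_add_inter (μ := volume) A hBm
  rw [← hU, hvB, hvI] at hmain
  have f1 := ((isCompact_sweep hK ((s + t) • u)).measure_lt_top (μ := (volume : Measure (ι → ℝ)))).ne
  have f2 := ((isCompact_sweep hK (s • u)).measure_lt_top (μ := (volume : Measure (ι → ℝ)))).ne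
  have f3 := ((isCompact_sweep hK (t • u)).measure_lt_top (μ := (volume : Measure (ι → ℝ)))).ne
  have f4 := (hK.measure_lt_top (μ := (volume : Measure (ι → ℝ)))).ne
  have hreal := congrArg ENNReal.toReal hmain
  rw [ENNReal.toReal_add f1 f4, ENNReal.toReal_add f2 f3] at hreal
  unfold hProj vol
  linarith

theorem additive_nonneg_linear10 (f : ℝ → ℝ)
    (hadd : ∀ s t, 0 ≤ s → 0 ≤ t → f (s + t) = f s + f t) (hnn : ∀ t, 0 ≤ t → 0 ≤ f t) :
    ∀ t, 0 ≤ t → f t = t * f 1 := by
  have hmono : ∀ a b, 0 ≤ a → a ≤ b → f a ≤ f b := by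
    intro a b ha hab
    have h := hadd a (b - a) ha (sub_nonneg.2 hab)
    rw [add_sub_cancel] at h
    linarith [hnn (b - a) (sub_nonneg.2 hab)]
  have h0 : f 0 = 0 := by
    have := hadd 0 0 le_rfl le_rfl
    simp at this
    linarith
  have hnat : ∀ (n : ℕ) (x : ℝ), 0 ≤ x → f (n * x) = n * f x := by
    intro n x hx
    induction n with
    | zero => simp [h0]
    | succ k ih =>
      have : ((k + 1 : ℕ) : ℝ) * x = k * x + x := by push_cast; ring
      rw [this, hadd _ _ (by positivity) hx, ih]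
      push_cast; ring
  intro t ht
  have hf1 : 0 ≤ f 1 := hnn 1 zero_le_one
  have key : ∀ N : ℕ, 0 < N → |f t - t * f 1| ≤ f 1 / N := by
    intro N hN
    have hNr : (0 : ℝ) < N := by exact_mod_cast hN
    set k := ⌊t * N⌋₊ with hk
    have hk1 : (k : ℝ) ≤ t * N := Nat.floor_le (by positivity)
    have hk2 : t * N < k + 1 := Nat.lt_floor_add_one _
    have hN1 : (N : ℝ) * f (1 / N) = f 1 := by
      rw [← hnat N (1 / N) (by positivity)]
      congr 1
      field_simp
    have hfN : f (1 / N) = f 1 / N := by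
      field_simp
      linarith
    have e1 : f (k * (1 / N)) = k * (f 1 / N) := by rw [hnat k _ (by positivity), hfN]
    have e2 : f (((k + 1 : ℕ) : ℝ) * (1 / N)) = ((k + 1 : ℕ) : ℝ) * (f 1 / N) := by
      rw [hnat (k + 1) _ (by positivity), hfN]
    have l1 : (k : ℝ) * (1 / N) ≤ t := by
      rw [mul_one_div, div_le_iff₀ hNr]; exact hk1
    have l2 : t ≤ ((k + 1 : ℕ) : ℝ) * (1 / N) := by
      rw [mul_one_div, le_div_iff₀ hNr]; push_cast; exact hk2.le
    have m1 := hmono _ _ (by positivity) l1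
    have m2 := hmono _ _ ht l2
    rw [e1] at m1
    rw [e2] at m2
    have hq : 0 ≤ f 1 / N := by positivity
    have n1 : (k : ℝ) * (f 1 / N) ≤ t * f 1 := by
      have : (k : ℝ) * (f 1 / N) = (k * (1 / N)) * f 1 := by ring
      rw [this]; exact mul_le_mul_of_nonneg_right l1 hf1
    have n2 : t * f 1 ≤ ((k + 1 : ℕ) : ℝ) * (f 1 / N) := by
      have : ((k + 1 : ℕ) : ℝ) * (f 1 / N) = (((k + 1 : ℕ) : ℝ) * (1 / N)) * f 1 := by ring
      rw [this]; exact mul_le_mul_of_nonneg_right l2 hf1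
    push_cast at m2 n2
    rw [abs_le]
    constructor <;> nlinarith
  by_contra hne
  have hpos : 0 < |f t - t * f 1| := abs_pos.2 (sub_ne_zero.2 hne)
  obtain ⟨N, hN⟩ := exists_nat_gt (f 1 / |f t - t * f 1|)
  have hN0 : 0 < N := by
    have : (0 : ℝ) ≤ f 1 / |f t - t * f 1| := by positivity
    have : (0 : ℝ) < N := lt_of_le_of_lt this hN
    exact_mod_cast this
  have hNr : (0 : ℝ) < N := by exact_mod_cast hN0
  have h1 := key N hN0
  rw [div_lt_iff₀ hpos] at hN
  rw [le_div_iff₀ hNr] at h1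
  linarith [mul_comm (N : ℝ) |f t - t * f 1|]

/-- A3: an additive nonnegative (hence monotone) function on `[0,∞)` is linear.  From `hProj_add`
and `hProj_nonneg` as black boxes: `f (n • x) = n f x`, rationals, squeeze. -/
theorem hProj_smul {K : Set (ι → ℝ)} (hK : IsCompact K) (hc : Convex ℝ K) (u : ι → ℝ) {t : ℝ}
    (ht : 0 ≤ t) : hProj K (t • u) = t * hProj K u := by
  have h := additive_nonneg_linear10 (fun r => hProj K (r • u))
    (fun a b ha hb => hProj_add hK hc u ha hb) (fun r _ => hProj_nonneg hK _) t ht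
  simpa using h

/-- A4: `L + [a,b] w = a w + (L + [0,(b-a) w])`; translation invariance and `hProj_smul`. -/
theorem vol_sweepI_Icc {L : Set (ι → ℝ)} (hL : IsCompact L) (hc : Convex ℝ L) (w : ι → ℝ)
    {a b : ℝ} (hab : a ≤ b) :
    vol (sweepI L w (Set.Icc a b)) = vol L + (b - a) * hProj L w := by
  have hset : sweepI L w (Set.Icc a b)
      = (fun y => y + (-(a • w))) ⁻¹' sweep L ((b - a) • w) := by
    ext y
    simp only [sweepI, sweep, Set.mem_setOf_eq, Set.mem_preimage]
    constructor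
    · rintro ⟨t, ⟨h1, h2⟩, hy⟩
      rcases eq_or_lt_of_le hab with h | h
      · subst h
        have ht : t = a := le_antisymm h2 h1
        subst ht
        refine ⟨y - t • w, hy, 0, ⟨le_refl _, zero_le_one⟩, ?_⟩
        simp [sub_eq_add_neg]
      · have hpos : 0 < b - a := sub_pos.mpr h
        refine ⟨y - t • w, hy, (t - a) / (b - a),
          ⟨div_nonneg (sub_nonneg.mpr h1) hpos.le, (div_le_one hpos).mpr (by linarith)⟩, ?_⟩
        rw [smul_smul, div_mul_cancel₀ _ hpos.ne', sub_smul]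
        abel
    · rintro ⟨x, hx, s, ⟨h1, h2⟩, hy⟩
      refine ⟨a + s * (b - a), ⟨?_, ?_⟩, ?_⟩
      · nlinarith [sub_nonneg.mpr hab]
      · nlinarith [sub_nonneg.mpr hab]
      · have : y - (a + s * (b - a)) • w = x := by
          have h3 : y = x + s • (b - a) • w + a • w := by
            rw [← hy]; abel
          rw [h3, add_smul, smul_smul]
          abel
        rw [this]; exact hx
  have h1 : vol (sweepI L w (Set.Icc a b)) = vol (sweep L ((b - a) • w)) := by
    unfold vol
    rw [hset, measure_preimage_add_right]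
  have h2 := hProj_smul hL hc w (sub_nonneg.mpr hab)
  unfold hProj at h2 ⊢
  rw [h1]
  linarith

end P237
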